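import Vale.Agent.P091.AD.H356.Look

/-!
# P091, row AD-3, first half: `LookA` (helper356)
-/

set_option autoImplicit false

open Finset Real
open Vale.Agent.P065.Ent

noncomputable section

namespace Vale.Agent.P091.AD.H356

open Vale.Agent.P091.AD

section gen
variable {Ω Ω' : Type*} [Fintype Ω] [Fintype Ω'] {α β γ δ ε : Type*} {G : Type*} [AddCommGroup G]
  {μ : Ω → ℝ} {κ : Ω → ℝ} {ρ : Ω' → ℝ}

/-- independence of `X` and `(Y, S)` given labels when `X`, `Y` live on the first factor -/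
theorem I_px3 (hκ : IsProb κ) (hρ : IsProb ρ) (X : Ω → α) (Y : Ω → β) (z : Ω → γ) (S : Ω' → δ)
    (l : Ω' → ε) (h : I κ X Y z = 0) :
    I (px κ ρ) (fun w => X w.1) (fun w => (Y w.1, S w.2)) (fun w => (z w.1, l w.2)) = 0 := by
  have e1 : Hc (px κ ρ) (fun w => X w.1) (fun w => ((Y w.1, S w.2), (z w.1, l w.2))) =
      Hc (px κ ρ) (fun w => X w.1)
        (fun w => ((fun c => (Y c, z c)) w.1, (fun f => (S f, l f)) w.2)) := by
    refine Hc_congr (Det.refl _) (Det.refl _) (fun a b e => ?_) (fun a b e => ?_)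
    · simp only [Prod.mk.injEq] at e ⊢
      exact ⟨⟨e.1.1, e.2.1⟩, e.1.2, e.2.2⟩
    · simp only [Prod.mk.injEq] at e ⊢
      exact ⟨⟨e.1.1, e.2.1⟩, e.1.2, e.2.2⟩
  unfold I at h ⊢
  rw [e1, Hc_px_left hκ hρ X z l,
    Hc_px_left hκ hρ X (fun c => (Y c, z c)) (fun f => (S f, l f)), h]

/-- adding a known variable changes nothing -/
theorem Hc_add_known (μ : Ω → ℝ) (X f : Ω → G) (W : Ω → δ) (h : Det W f) :
    Hc μ (fun ω => X ω + f ω) W = Hc μ X W := by
  unfold Hc
  rw [H_congr (X := fun ω => (X ω + f ω, W ω)) (Y := fun ω => (X ω, W ω))]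
  · intro a b e
    simp only [Prod.mk.injEq] at e ⊢
    obtain ⟨e1, e2⟩ := e
    rw [h a b e2] at e1
    exact ⟨add_right_cancel e1, e2⟩
  · intro a b e
    simp only [Prod.mk.injEq] at e ⊢
    obtain ⟨e1, e2⟩ := e
    exact ⟨by rw [e1, h a b e2], e2⟩

/-- adding an independent variable increases the entropy: if `I (X; Y | W) = 0` then
`H (X | W) ≤ H (X + Y | W)` -/
theorem Hc_le_add_indep (hμ : IsProb μ) (X Y : Ω → G) (W : Ω → δ) (h : I μ X Y W = 0) :
    Hc μ X W ≤ Hc μ (fun ω => X ω + Y ω) W := by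
  have h1 : Hc μ (fun ω => X ω + Y ω) (fun ω => (Y ω, W ω)) = Hc μ X (fun ω => (Y ω, W ω)) :=
    Hc_add_known μ X Y _ (det_fst Y W)
  have h2 := Hc_anti hμ (fun ω => X ω + Y ω) (det_snd Y W)
  unfold I at h
  linarith

end gen

section looka
variable {Γ : Type} [AddCommGroup Γ] (lam : Law Γ)

/-- one more letter: `h (q + 1)` on the space (letter) × (word) -/
theorem h_succ (q : ℕ) : lam.h (q + 1) =
    Hc (px lam.beta (pw (ι := Fin q) lam.beta)) (fun w => lam.N w.1 + sm lam.N w.2)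
      (fun w => (lam.zl w.1, lb lam.zl w.2)) := by
  unfold Law.h
  rw [← (MP_cons (n := q) lam.beta).hc]
  refine Hc_congr ?_ ?_ ?_ ?_
  · intro a b e
    simp only [sm, Fin.sum_univ_succ, Fin.cons_zero, Fin.cons_succ] at e ⊢
    exact e
  · intro a b e
    simp only [sm, Fin.sum_univ_succ, Fin.cons_zero, Fin.cons_succ] at e ⊢
    exact e
  · intro a b e
    have h0 := congrFun e 0
    simp only [lb, Fin.cons_zero] at h0
    simp only [Prod.mk.injEq]
    refine ⟨h0, funext fun j => ?_⟩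
    have hj := congrFun e j.succ
    simpa only [lb, Fin.cons_succ] using hj
  · intro a b e
    simp only [Prod.mk.injEq] at e
    funext j
    refine Fin.cases ?_ (fun j => ?_) j
    · simpa only [lb, Fin.cons_zero] using e.1
    · have hj := congrFun e.2 j
      simpa only [lb, Fin.cons_succ] using hj

/-- `H (a + S_q | labels) ≤ h (q + 1)` -/
theorem XK_zero_le (q : ℕ) :
    Hc (px lam.μ (pw (ι := Fin q) lam.beta)) (fun w => lam.a w.1 + sm lam.N w.2)
      (fun w => (lam.z w.1, lb lam.zl w.2)) ≤ lam.h (q + 1) := by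
  have hb : IsProb (pw (ι := Fin q) lam.beta) := pw_isProb lam.beta_isProb
  have hB := lam.beta_isProb
  have m : MP (px lam.beta (pw (ι := Fin q) lam.beta)) (px lam.μ (pw (ι := Fin q) lam.beta))
      (Prod.map Prod.fst (fun f => f)) := (MP_cc_fst lam.prob lam.z).prodMap (MP_id _)
  rw [h_succ, ← m.hc]
  -- the second point of the letter is independent of the rest
  have hi : I (px lam.beta (pw (ι := Fin q) lam.beta)) (fun w => lam.a w.1.1 + sm lam.N w.2)
      (fun w => - lam.a w.1.2) (fun w => (lam.z w.1.1, lb lam.zl w.2)) = 0 := by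
    have h0 : I lam.beta (fun u : lam.Lt => - lam.a u.2) (fun u : lam.Lt => lam.a u.1)
        (fun u : lam.Lt => lam.z u.1) = 0 := by
      rw [I_symm]
      exact I_cc0 lam.prob lam.z lam.a (fun ω => - lam.a ω)
    have h1 := I_px3 hB hb (fun u : lam.Lt => - lam.a u.2) (fun u : lam.Lt => lam.a u.1)
      (fun u : lam.Lt => lam.z u.1) (sm lam.N) (lb lam.zl) h0
    rw [I_symm]
    refine le_antisymm ?_ (I_nonneg (px_isProb hB hb) _ _ _)
    rw [← h1]
    refine I_mono_right (px_isProb hB hb) _ _ fun a b e => ?_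
    simp only [Prod.mk.injEq] at e ⊢
    rw [e.1, e.2]
  have h2 := Hc_le_add_indep (px_isProb hB hb) _ _ _ hi
  refine h2.trans (le_of_eq ?_)
  refine Hc_congr ?_ ?_ (Det.refl _) (Det.refl _)
  · intro a b e
    simp only [Law.N] at e ⊢
    have : ∀ w : lam.Lt × (Fin q → lam.Lt), lam.a w.1.1 - lam.a w.1.2 + sm lam.N w.2 =
        lam.a w.1.1 + sm lam.N w.2 + - lam.a w.1.2 := fun w => by abel
    rw [this, this]; exact e
  · intro a b e
    simp only [Law.N] at e ⊢
    have : ∀ w : lam.Lt × (Fin q → lam.Lt), lam.a w.1.1 - lam.a w.1.2 + sm lam.N w.2 =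
        lam.a w.1.1 + sm lam.N w.2 + - lam.a w.1.2 := fun w => by abel
    rw [this, this] at e; exact e

end looka

/-- **AD-LOOKA** -/
theorem lookA : LookA := by
  intro Γ _ lam q K
  have hb : IsProb (pw (ι := Fin q) lam.beta) := pw_isProb lam.beta_isProb
  have h1 := look_cost lam.a lam.z (sm lam.N) (lb lam.zl) (AddMonoidHom.id Γ) lam.prob hb
    (fun a b e => e) K
  rw [DK_zero lam.a lam.z (sm lam.N) (lb lam.zl) (AddMonoidHom.id Γ) hb,
    XK_zero lam.a lam.z (sm lam.N) (lb lam.zl) (AddMonoidHom.id Γ) hb] at h1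
  have h2 := XK_zero_le lam q
  have h3 : DK lam.μ (pw (ι := Fin q) lam.beta) lam.a lam.z (sm lam.N) (lb lam.zl)
      (AddMonoidHom.id Γ) K = Hc (lam.looks q K).μ (lam.looks q K).a (lam.looks q K).z := rfl
  rw [h3] at h1
  refine h1.trans ?_
  refine mul_le_mul_of_nonneg_left ?_ (Nat.cast_nonneg K)
  exact sub_le_sub_right h2 _

end Vale.Agent.P091.AD.H356
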