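import Vale.Agent.P091.AD.H356.LookA

/-!
# P091, row AD-3, second half: `LookB` (helper356)
-/

set_option autoImplicit false

open Finset Real
open Vale.Agent.P065.Ent

noncomputable section

namespace Vale.Agent.P091.AD.H356

open Vale.Agent.P091.AD

section kvm
variable {Ω : Type*} [Fintype Ω] {α β γ δ : Type*} {G : Type*} [AddCommGroup G] {μ : Ω → ℝ}

/-- a function of `(Y, W)` is independent of `X` given `W` if `Y` is -/
theorem I_zero_mono (hμ : IsProb μ) {X : Ω → α} {Y : Ω → β} {Z : Ω → γ} {W : Ω → δ}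
    (h0 : I μ X Y W = 0) (h : Det (fun ω => (Y ω, W ω)) Z) : I μ X Z W = 0 := by
  refine le_antisymm ?_ (I_nonneg hμ X Z W)
  rw [← h0]
  unfold I
  have := Hc_anti hμ X (h.pair (det_snd Y W))
  linarith

/-- one step of the Kaimanovich-Vershik-Madiman inequality -/
theorem kvm_one (hμ : IsProb μ) (X Y S : Ω → G) (W : Ω → δ)
    (h1 : I μ X (fun ω => (Y ω, S ω)) W = 0) (h2 : I μ S (fun ω => (X ω, Y ω)) W = 0) :
    Hc μ (fun ω => X ω + (Y ω + S ω)) W - Hc μ (fun ω => Y ω + S ω) W ≤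
      Hc μ (fun ω => X ω + Y ω) W - Hc μ Y W := by
  have a1 := I_self_add' μ X (fun ω => Y ω + S ω) W
  have a2 : I μ X (fun ω => Y ω + S ω) W = 0 := I_zero_mono hμ h1 fun a b e => by
    simp only [Prod.mk.injEq] at e ⊢
    obtain ⟨⟨e1, e2⟩, -⟩ := e
    rw [e1, e2]
  have a3 := I_self_add' μ X Y W
  have a4 : I μ X Y W = 0 := I_zero_mono hμ h1 fun a b e => by
    simp only [Prod.mk.injEq] at e ⊢
    exact e.1.1
  have a5 : I μ X (fun ω => X ω + (Y ω + S ω)) W ≤ I μ X (fun ω => (S ω, X ω + Y ω)) W := by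
    refine I_mono_right hμ X W fun a b e => ?_
    simp only [Prod.mk.injEq] at e ⊢
    obtain ⟨e1, e2⟩ := e
    rw [← add_assoc, ← add_assoc, e1, e2]
  have a6 := I_chain μ X S (fun ω => X ω + Y ω) W
  have a7 := I_chain μ S X (fun ω => X ω + Y ω) W
  have a8 : I μ S (fun ω => (X ω, X ω + Y ω)) W = 0 := I_zero_mono hμ h2 fun a b e => by
    simp only [Prod.mk.injEq] at e ⊢
    obtain ⟨⟨e1, e2⟩, -⟩ := e
    rw [e1, e2]
    exact ⟨rfl, rfl⟩
  have a9 := I_nonneg hμ S (fun ω => X ω + Y ω) W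
  have a10 := I_nonneg hμ S X (fun ω => (X ω + Y ω, W ω))
  rw [I_symm μ X S] at a6
  linarith

end kvm

/-! ## Words over general index sets -/

section index
variable {Γ : Type} [AddCommGroup Γ] (lam : Law Γ) {ι ι' κ : Type*} [Fintype ι] [DecidableEq ι]
  [Fintype ι'] [DecidableEq ι'] [Fintype κ] [DecidableEq κ]

/-- `h` over a general index set -/
def hI (ι : Type*) [Fintype ι] [DecidableEq ι] : ℝ :=
  Hc (pw (ι := ι) lam.beta) (sm lam.N) (lb lam.zl)

theorem hI_reindex (e : ι ≃ ι') : hI lam ι = hI lam ι' := by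
  unfold hI
  rw [← (MP_reindex lam.beta e).hc]
  refine Hc_congr ?_ ?_ ?_ ?_
  · intro a b h
    simp only [sm] at h ⊢
    rw [e.sum_comp (fun i => lam.N (a i)), e.sum_comp (fun i => lam.N (b i))] at h
    exact h
  · intro a b h
    simp only [sm] at h ⊢
    rw [e.sum_comp (fun i => lam.N (a i)), e.sum_comp (fun i => lam.N (b i))]
    exact h
  · intro a b h
    funext i
    have := congrFun h (e.symm i)
    simpa only [lb, Equiv.apply_symm_apply] using this
  · intro a b h
    funext i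
    exact congrFun h (e i)

theorem h_eq_hI (m p : ℕ) : lam.h (m * p) = hI lam (Fin m × Fin p) :=
  (hI_reindex lam (finProdFinEquiv (m := m) (n := p))).symm

/-- `h` on the space of words of words -/
theorem hI_curry : hI lam (ι × κ) = Hc (pw (ι := ι) (pw (ι := κ) lam.beta))
    (fun f => ∑ i, sm lam.N (f i)) (fun f i => lb lam.zl (f i)) := by
  unfold hI
  rw [← (MP_curry (ι := ι) (κ := κ) lam.beta).hc]
  refine Hc_congr ?_ ?_ ?_ ?_
  · intro a b h
    simp only [sm, Fintype.sum_prod_type] at h ⊢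
    exact h
  · intro a b h
    simp only [sm, Fintype.sum_prod_type] at h ⊢
    exact h
  · intro a b h
    funext i k
    exact congrFun h (i, k)
  · intro a b h
    funext i
    exact congrFun (congrFun h i.1) i.2

/-- `h` as the entropy of the difference of two conditionally independent words -/
theorem hI_pair : hI lam ι = Hc (cc (pw (ι := ι) lam.μ) (lb lam.z))
    (fun u => sm lam.a u.1 + - sm lam.a u.2) (fun u => lb lam.z u.1) := by
  rw [← (MP_pw_cc (ι := ι) lam.μ lam.z).hc]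
  have : (fun u : ι → lam.Lt => sm lam.a (fun i => (u i).1) + - sm lam.a (fun i => (u i).2)) =
      sm lam.N := by
    funext u
    simp only [sm, Law.N, sub_eq_add_neg, sum_add_distrib, sum_neg_distrib]
  rw [this]
  rfl

omit [AddCommGroup Γ] in
/-- swapping all letters -/
theorem MP_swapWord : MP (pw (ι := ι) (pw (ι := κ) lam.beta)) (pw (ι := ι) (pw (ι := κ) lam.beta))
    (fun f i k => (f i k).swap) := by
  have h := MP.equiv (μ := pw (ι := ι) (pw (ι := κ) lam.beta))
    (μ' := pw (ι := ι) (pw (ι := κ) lam.beta))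
    (Equiv.arrowCongr (Equiv.refl ι) (Equiv.arrowCongr (Equiv.refl κ)
      (Equiv.prodComm lam.Ω lam.Ω))) fun f => by
      unfold pw
      refine prod_congr rfl fun i _ => prod_congr rfl fun k _ => ?_
      exact (cc_swap lam.μ lam.z (f i k)).symm
  exact h

omit [DecidableEq ι] in
theorem pw_ne_zero {L : Type*} {b : L → ℝ} {u : ι → L} (h : pw b u ≠ 0) (i : ι) : b (u i) ≠ 0 :=
  (Finset.prod_ne_zero_iff.mp h) i (mem_univ i)

end index

section stepB
variable {Γ : Type} [AddCommGroup Γ] {Ξ F Z ℒ : Type} [Fintype Ξ] [Fintype F]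
  {M : Ξ → ℝ} {ρ : F → ℝ}

/-- Step B: a difference of two conditionally independent copies -/
theorem step_B (hM : IsProb M) (hρ : IsProb ρ) (A : Ξ → Γ) (zz : Ξ → Z) (S : F → Γ) (lab : F → ℒ)
    (sw : F → F) (hsw : MP ρ ρ sw) (hS : ∀ f, S (sw f) = - S f)
    (hl : ∀ f, ρ f ≠ 0 → lab (sw f) = lab f) :
    Hc (cc M zz) (fun u => A u.1 + - A u.2) (fun u => zz u.1) ≤
      2 * Hc (px M ρ) (fun w => A w.1 + S w.2) (fun w => (zz w.1, lab w.2)) - Hc ρ S lab := by
  have hκ := cc_isProb hM zz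
  have hP := px_isProb hκ hρ
  -- b1
  have b1 : Hc (cc M zz) (fun u => A u.1 + - A u.2) (fun u => zz u.1) ≤
      Hc (px (cc M zz) ρ) (fun w => (A w.1.1 + - A w.1.2) + S w.2)
        (fun w => (zz w.1.1, lab w.2)) := by
    rw [← Hc_px_left hκ hρ (fun u : Ξ × Ξ => A u.1 + - A u.2) (fun u => zz u.1) lab]
    exact Hc_le_add_indep hP _ _ _
      (I_px hκ hρ (fun u : Ξ × Ξ => A u.1 + - A u.2) S (fun u => zz u.1) lab)
  -- b2
  have i0 : I (cc M zz) (fun u => A u.1) (fun u => - A u.2) (fun u => zz u.1) = 0 :=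
    I_cc0 hM zz A (fun ξ => - A ξ)
  have i1 : I (px (cc M zz) ρ) (fun w => A w.1.1) (fun w => (S w.2, - A w.1.2))
      (fun w => (zz w.1.1, lab w.2)) = 0 := by
    have := I_px3 hκ hρ (fun u : Ξ × Ξ => A u.1) (fun u => - A u.2) (fun u => zz u.1) S lab i0
    refine I_zero_mono hP this fun a b e => ?_
    simp only [Prod.mk.injEq] at e ⊢
    exact ⟨e.1.2, e.1.1⟩
  have i2 : I (px (cc M zz) ρ) (fun w => - A w.1.2) (fun w => (A w.1.1, S w.2))
      (fun w => (zz w.1.1, lab w.2)) = 0 :=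
    I_px3 hκ hρ (fun u : Ξ × Ξ => - A u.2) (fun u => A u.1) (fun u => zz u.1) S lab
      (by rw [I_symm]; exact i0)
  have b2 := kvm_one hP (fun w => A w.1.1) (fun w => S w.2) (fun w => - A w.1.2)
    (fun w => (zz w.1.1, lab w.2)) i1 i2
  -- b3
  have b3 : Hc (px (cc M zz) ρ) (fun w => A w.1.1 + S w.2) (fun w => (zz w.1.1, lab w.2)) =
      Hc (px M ρ) (fun w => A w.1 + S w.2) (fun w => (zz w.1, lab w.2)) :=
    ((MP_cc_fst hM zz).prodMap (MP_id ρ)).hc (fun w => A w.1 + S w.2) (fun w => (zz w.1, lab w.2))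
  -- b4
  have b4 : Hc (px (cc M zz) ρ) (fun w => S w.2) (fun w => (zz w.1.1, lab w.2)) = Hc ρ S lab :=
    Hc_px_right hκ hρ S (fun u : Ξ × Ξ => zz u.1) lab
  -- b5
  have b5 : Hc (px (cc M zz) ρ) (fun w => S w.2 + - A w.1.2) (fun w => (zz w.1.1, lab w.2)) =
      Hc (px M ρ) (fun w => A w.1 + S w.2) (fun w => (zz w.1, lab w.2)) := by
    have c1 : Hc (px (cc M zz) ρ) (fun w => S w.2 + - A w.1.2) (fun w => (zz w.1.1, lab w.2)) =
        Hc (px (cc M zz) ρ) (fun w => S w.2 + - A w.1.2) (fun w => (zz w.1.2, lab w.2)) := by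
      refine Hc_congr_ae (fun _ _ => rfl) fun w hw => ?_
      have : cc M zz w.1 ≠ 0 := left_ne_zero_of_mul hw
      rw [cc_ne_zero this]
    have c2 : Hc (px (cc M zz) ρ) (fun w => S w.2 + - A w.1.2) (fun w => (zz w.1.2, lab w.2)) =
        Hc (px M ρ) (fun w => S w.2 + - A w.1) (fun w => (zz w.1, lab w.2)) :=
      ((MP_cc_snd hM zz).prodMap (MP_id ρ)).hc (fun w => S w.2 + - A w.1)
        (fun w => (zz w.1, lab w.2))
    have c3 : Hc (px M ρ) (fun w => A w.1 + S w.2) (fun w => (zz w.1, lab w.2)) =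
        Hc (px M ρ) (fun w => A w.1 + S (sw w.2)) (fun w => (zz w.1, lab (sw w.2))) :=
      (((MP_id M).prodMap hsw).hc (fun w => A w.1 + S w.2) (fun w => (zz w.1, lab w.2))).symm
    have c4 : Hc (px M ρ) (fun w => A w.1 + S (sw w.2)) (fun w => (zz w.1, lab (sw w.2))) =
        Hc (px M ρ) (fun w => A w.1 + - S w.2) (fun w => (zz w.1, lab w.2)) := by
      refine Hc_congr_ae (fun w _ => by rw [hS]) fun w hw => ?_
      rw [hl _ (right_ne_zero_of_mul hw)]
    rw [c1, c2, c3, c4]
    refine Hc_congr ?_ ?_ (Det.refl _) (Det.refl _)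
    · intro a b e
      simp only at e ⊢
      have : ∀ w : Ξ × F, A w.1 + - S w.2 = - (S w.2 + - A w.1) := fun w => by abel
      rw [this, this, e]
    · intro a b e
      simp only at e ⊢
      have : ∀ w : Ξ × F, S w.2 + - A w.1 = - (A w.1 + - S w.2) := fun w => by abel
      rw [this, this, e]
  have b6 : (fun w : (Ξ × Ξ) × F => (A w.1.1 + - A w.1.2) + S w.2) =
      (fun w => A w.1.1 + (S w.2 + - A w.1.2)) := by
    funext w; abel
  rw [b6] at b1
  rw [b3, b4, b5] at b2
  linarith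

/-- Step C: `m` independent groups -/
theorem step_C (hM : IsProb M) (hρ : IsProb ρ) (A : Ξ → Γ) (zz : Ξ → Z) (S : F → Γ) (lab : F → ℒ)
    (m : ℕ) :
    Hc (px (pw (ι := Fin m) M) ρ) (fun w => (∑ g, A (w.1 g)) + S w.2)
        (fun w => (fun g => zz (w.1 g), lab w.2)) - Hc ρ S lab ≤
      m * (Hc (px M ρ) (fun w => A w.1 + S w.2) (fun w => (zz w.1, lab w.2)) - Hc ρ S lab) := by
  induction m with
  | zero =>
    have h0 : IsProb (pw (ι := Fin 0) M) := pw_isProb hM
    have e1 : Hc (px (pw (ι := Fin 0) M) ρ) (fun w => (∑ g, A (w.1 g)) + S w.2)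
        (fun w => (fun g => zz (w.1 g), lab w.2)) = Hc ρ S lab := by
      rw [← Hc_px_right h0 hρ S (fun u : Fin 0 → Ξ => fun g => zz (u g)) lab]
      refine Hc_congr ?_ ?_ (Det.refl _) (Det.refl _)
      · intro a b e
        simpa using e
      · intro a b e
        simpa using e
    rw [e1]; simp
  | succ m ih =>
    have hm : IsProb (pw (ι := Fin m) M) := pw_isProb hM
    have hκ : IsProb (px M (pw (ι := Fin m) M)) := px_isProb hM hm
    have hP := px_isProb hκ hρ
    -- the variables on the space `(group × groups) × F`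
    have i0 : I (px M (pw (ι := Fin m) M)) (fun c => A c.1) (fun c => ∑ g, A (c.2 g))
        (fun c => (zz c.1, fun g => zz (c.2 g))) = 0 :=
      I_px hM hm A (fun u => ∑ g, A (u g)) zz (fun u g => zz (u g))
    have i1 : I (px (px M (pw (ι := Fin m) M)) ρ) (fun w => A w.1.1)
        (fun w => (S w.2, ∑ g, A (w.1.2 g)))
        (fun w => ((zz w.1.1, fun g => zz (w.1.2 g)), lab w.2)) = 0 := by
      have := I_px3 hκ hρ (fun c : Ξ × (Fin m → Ξ) => A c.1) (fun c => ∑ g, A (c.2 g))
        (fun c => (zz c.1, fun g => zz (c.2 g))) S lab i0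
      refine I_zero_mono hP this fun a b e => ?_
      simp only [Prod.mk.injEq] at e ⊢
      exact ⟨e.1.2, e.1.1⟩
    have i2 : I (px (px M (pw (ι := Fin m) M)) ρ) (fun w => ∑ g, A (w.1.2 g))
        (fun w => (A w.1.1, S w.2))
        (fun w => ((zz w.1.1, fun g => zz (w.1.2 g)), lab w.2)) = 0 :=
      I_px3 hκ hρ (fun c : Ξ × (Fin m → Ξ) => ∑ g, A (c.2 g)) (fun c => A c.1)
        (fun c => (zz c.1, fun g => zz (c.2 g))) S lab (by rw [I_symm]; exact i0)
    have b2 := kvm_one hP (fun w => A w.1.1) (fun w => S w.2) (fun w => ∑ g, A (w.1.2 g))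
      (fun w => ((zz w.1.1, fun g => zz (w.1.2 g)), lab w.2)) i1 i2
    -- identification of the four terms
    have e1 : Hc (px (px M (pw (ι := Fin m) M)) ρ)
        (fun w => A w.1.1 + (S w.2 + ∑ g, A (w.1.2 g)))
        (fun w => ((zz w.1.1, fun g => zz (w.1.2 g)), lab w.2)) =
        Hc (px (pw (ι := Fin (m + 1)) M) ρ) (fun w => (∑ g, A (w.1 g)) + S w.2)
          (fun w => (fun g => zz (w.1 g), lab w.2)) := by
      rw [← ((MP_cons (n := m) M).prodMap (MP_id ρ)).hc (fun w => (∑ g, A (w.1 g)) + S w.2)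
          (fun w => (fun g => zz (w.1 g), lab w.2))]
      refine Hc_congr ?_ ?_ ?_ ?_
      · intro a b e
        simp only [Prod.map, Fin.sum_univ_succ, Fin.cons_zero, Fin.cons_succ] at e ⊢
        have : ∀ w : (Ξ × (Fin m → Ξ)) × F, A w.1.1 + (∑ g, A (w.1.2 g)) + S w.2 =
            A w.1.1 + (S w.2 + ∑ g, A (w.1.2 g)) := fun w => by abel
        rw [this, this]; exact e
      · intro a b e
        simp only [Prod.map, Fin.sum_univ_succ, Fin.cons_zero, Fin.cons_succ] at e ⊢
        have : ∀ w : (Ξ × (Fin m → Ξ)) × F, A w.1.1 + (∑ g, A (w.1.2 g)) + S w.2 =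
            A w.1.1 + (S w.2 + ∑ g, A (w.1.2 g)) := fun w => by abel
        rw [this, this] at e; exact e
      · intro a b e
        simp only [Prod.map, Prod.mk.injEq] at e ⊢
        refine ⟨funext fun g => ?_, e.2⟩
        refine Fin.cases ?_ (fun g => ?_) g
        · simpa only [Fin.cons_zero] using e.1.1
        · simpa only [Fin.cons_succ] using congrFun e.1.2 g
      · intro a b e
        simp only [Prod.map, Prod.mk.injEq] at e ⊢
        have h0 := congrFun e.1 0
        simp only [Fin.cons_zero] at h0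
        refine ⟨⟨h0, funext fun g => ?_⟩, e.2⟩
        simpa only [Fin.cons_succ] using congrFun e.1 g.succ
    have e2 : Hc (px (px M (pw (ι := Fin m) M)) ρ) (fun w => S w.2 + ∑ g, A (w.1.2 g))
        (fun w => ((zz w.1.1, fun g => zz (w.1.2 g)), lab w.2)) =
        Hc (px (pw (ι := Fin m) M) ρ) (fun w => (∑ g, A (w.1 g)) + S w.2)
          (fun w => (fun g => zz (w.1 g), lab w.2)) := by
      rw [← Hc_px_right hM (px_isProb hm hρ)
        (fun w : (Fin m → Ξ) × F => (∑ g, A (w.1 g)) + S w.2) zz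
        (fun w : (Fin m → Ξ) × F => (fun g => zz (w.1 g), lab w.2))]
      rw [← (MP_assoc (μ := M) (ν := pw (ι := Fin m) M) (κ := ρ)).hc]
      refine Hc_congr ?_ ?_ ?_ ?_
      · intro a b e
        simp only at e ⊢
        rw [add_comm, e, add_comm]
      · intro a b e
        simp only at e ⊢
        rw [add_comm, e, add_comm]
      · intro a b e
        simp only [Prod.mk.injEq] at e ⊢
        exact ⟨e.1.1, e.1.2, e.2⟩
      · intro a b e
        simp only [Prod.mk.injEq] at e ⊢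
        exact ⟨⟨e.1, e.2.1⟩, e.2.2⟩
    have e3 : Hc (px (px M (pw (ι := Fin m) M)) ρ) (fun w => A w.1.1 + S w.2)
        (fun w => ((zz w.1.1, fun g => zz (w.1.2 g)), lab w.2)) =
        Hc (px M ρ) (fun w => A w.1 + S w.2) (fun w => (zz w.1, lab w.2)) := by
      rw [← Hc_px_right hm (px_isProb hM hρ) (fun w : Ξ × F => A w.1 + S w.2)
        (fun u : Fin m → Ξ => fun g => zz (u g)) (fun w : Ξ × F => (zz w.1, lab w.2))]
      have mm : MP (px (px M (pw (ι := Fin m) M)) ρ) (px (pw (ι := Fin m) M) (px M ρ))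
          (fun w => (w.1.2, (w.1.1, w.2))) :=
        ((MP_swap (μ := M) (ν := pw (ι := Fin m) M)).prodMap (MP_id ρ)).comp
          (MP_assoc (μ := pw (ι := Fin m) M) (ν := M) (κ := ρ))
      rw [← mm.hc]
      refine Hc_congr (Det.refl _) (Det.refl _) ?_ ?_
      · intro a b e
        simp only [Prod.mk.injEq] at e ⊢
        exact ⟨e.1.2, e.1.1, e.2⟩
      · intro a b e
        simp only [Prod.mk.injEq] at e ⊢
        exact ⟨⟨e.2.1, e.1⟩, e.2.2⟩
    have e4 : Hc (px (px M (pw (ι := Fin m) M)) ρ) (fun w => S w.2)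
        (fun w => ((zz w.1.1, fun g => zz (w.1.2 g)), lab w.2)) = Hc ρ S lab :=
      Hc_px_right hκ hρ S (fun c : Ξ × (Fin m → Ξ) => (zz c.1, fun g => zz (c.2 g))) lab
    rw [e1, e2, e3, e4] at b2
    push_cast
    linarith

end stepB

/-! ## Step D: the looks of a word -/

section stepD
variable {Γ : Type} [AddCommGroup Γ] (lam : Law Γ)

/-- the sum of the coordinates -/
def sumHom (Γ : Type) [AddCommGroup Γ] (p : ℕ) : (Fin p → Γ) →+ Γ where
  toFun g := ∑ i, g i
  map_zero' := by simp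
  map_add' g g' := by simp [sum_add_distrib]

/-- reorganisation of a word of sample points of `looks q K` -/
theorem MP_org (q K p : ℕ) : MP (pw (ι := Fin p) (lam.looks q K).μ)
    (px (pw (ι := Fin p) lam.μ) (pw (ι := Fin K) (pw (ι := Fin p) (pw (ι := Fin q) lam.beta))))
    (fun u => ((fun i => (u i).1), fun j i => (u i).2 j)) := by
  have h := MP.equiv (μ := pw (ι := Fin p) (lam.looks q K).μ)
    (μ' := px (pw (ι := Fin p) lam.μ)
      (pw (ι := Fin K) (pw (ι := Fin p) (pw (ι := Fin q) lam.beta))))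
    ((Equiv.arrowProdEquivProdArrow (Fin p) (fun _ => lam.Ω)
      (fun _ => Fin K → Fin q → lam.Lt)).trans
      (Equiv.prodCongr (Equiv.refl _) (Equiv.piComm (fun _ _ => Fin q → lam.Lt)))) fun u => by
    show pw (ι := Fin p) (lam.looks q K).μ u = pw (ι := Fin p) lam.μ (fun i => (u i).1) *
      pw (ι := Fin K) (pw (ι := Fin p) (pw (ι := Fin q) lam.beta)) (fun j i => (u i).2 j)
    rw [← pw_flip (ι := Fin p) (κ := Fin K) (pw (ι := Fin q) lam.beta) (fun i => (u i).2)]
    unfold pw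
    rw [← prod_mul_distrib]
    rfl
  exact h

/-- the entropy of a fresh group look -/
def xG (q K p : ℕ) : ℝ :=
  Hc (px (pw (ι := Fin p) (lam.looks q K).μ) (pw (ι := Fin p) (pw (ι := Fin q) lam.beta)))
    (fun w => sm (lam.looks q K).a w.1 + ∑ i, sm lam.N (w.2 i))
    (fun w => (lb (lam.looks q K).z w.1, fun i => lb lam.zl (w.2 i)))

theorem step_D (q K p : ℕ) :
    K * (xG lam q K p - Hc (pw (ι := Fin p) (pw (ι := Fin q) lam.beta))
      (fun f => ∑ i, sm lam.N (f i)) (fun f i => lb lam.zl (f i))) ≤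
      lam.ha p - (lam.looks q K).ha p := by
  have hμ : IsProb (pw (ι := Fin p) lam.μ) := pw_isProb lam.prob
  have hρ : IsProb (pw (ι := Fin p) (pw (ι := Fin q) lam.beta)) :=
    pw_isProb (pw_isProb lam.beta_isProb)
  have h1 := look_gain (fun (ω : Fin p → lam.Ω) i => lam.a (ω i)) (lb lam.z)
    (fun (f : Fin p → Fin q → lam.Lt) i => sm lam.N (f i)) (fun f i => lb lam.zl (f i))
    (sumHom Γ p) hμ hρ K
  rw [DK_zero _ _ _ _ _ hρ] at h1
  have e1 : XK (pw (ι := Fin p) lam.μ) (pw (ι := Fin p) (pw (ι := Fin q) lam.beta))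
      (fun (ω : Fin p → lam.Ω) i => lam.a (ω i)) (lb lam.z)
      (fun (f : Fin p → Fin q → lam.Lt) i => sm lam.N (f i)) (fun f i => lb lam.zl (f i))
      (sumHom Γ p) K = xG lam q K p := by
    unfold XK xG
    rw [← ((MP_org lam q K p).prodMap (MP_id _)).hc]
    refine Hc_congr (Det.refl _) (Det.refl _) ?_ ?_
    · intro a b e
      simp only [lk, Prod.map, Prod.mk.injEq] at e ⊢
      obtain ⟨⟨e1, e2⟩, e3⟩ := e
      refine ⟨funext fun i => ?_, e3⟩
      show (lam.z (a.1 i).1, fun j => (lb lam.zl ((a.1 i).2 j),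
          lam.a (a.1 i).1 + sm lam.N ((a.1 i).2 j))) =
        (lam.z (b.1 i).1, fun j => (lb lam.zl ((b.1 i).2 j),
          lam.a (b.1 i).1 + sm lam.N ((b.1 i).2 j)))
      refine Prod.ext (congrFun e1 i) (funext fun j => ?_)
      have h2 := congrFun e2 j
      simp only [Prod.mk.injEq] at h2
      exact Prod.ext (congrFun h2.1 i) (congrFun h2.2 i)
    · intro a b e
      simp only [lk, Prod.map, Prod.mk.injEq] at e ⊢
      obtain ⟨e1, e3⟩ := e
      have hi : ∀ i, (lam.z (a.1 i).1, fun j => (lb lam.zl ((a.1 i).2 j),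
          lam.a (a.1 i).1 + sm lam.N ((a.1 i).2 j))) =
        (lam.z (b.1 i).1, fun j => (lb lam.zl ((b.1 i).2 j),
          lam.a (b.1 i).1 + sm lam.N ((b.1 i).2 j))) := fun i => congrFun e1 i
      refine ⟨⟨funext fun i => (Prod.mk.inj (hi i)).1, funext fun j => ?_⟩, e3⟩
      have hj : ∀ i, (lb lam.zl ((a.1 i).2 j), lam.a (a.1 i).1 + sm lam.N ((a.1 i).2 j)) =
          (lb lam.zl ((b.1 i).2 j), lam.a (b.1 i).1 + sm lam.N ((b.1 i).2 j)) :=
        fun i => congrFun (Prod.mk.inj (hi i)).2 j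
      exact Prod.ext (funext fun i => (Prod.mk.inj (hj i)).1)
        (funext fun i => (Prod.mk.inj (hj i)).2)
  have e2 : DK (pw (ι := Fin p) lam.μ) (pw (ι := Fin p) (pw (ι := Fin q) lam.beta))
      (fun (ω : Fin p → lam.Ω) i => lam.a (ω i)) (lb lam.z)
      (fun (f : Fin p → Fin q → lam.Lt) i => sm lam.N (f i)) (fun f i => lb lam.zl (f i))
      (sumHom Γ p) K = (lam.looks q K).ha p := by
    unfold DK Law.ha
    rw [← (MP_org lam q K p).hc]
    refine Hc_congr (Det.refl _) (Det.refl _) ?_ ?_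
    · intro a b e
      simp only [lk, Prod.mk.injEq] at e
      obtain ⟨e1, e2⟩ := e
      funext i
      show (lam.z (a i).1, fun j => (lb lam.zl ((a i).2 j),
          lam.a (a i).1 + sm lam.N ((a i).2 j))) =
        (lam.z (b i).1, fun j => (lb lam.zl ((b i).2 j),
          lam.a (b i).1 + sm lam.N ((b i).2 j)))
      refine Prod.ext (congrFun e1 i) (funext fun j => ?_)
      have h2 := congrFun e2 j
      simp only [Prod.mk.injEq] at h2
      exact Prod.ext (congrFun h2.1 i) (congrFun h2.2 i)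
    · intro a b e
      have hi : ∀ i, (lam.z (a i).1, fun j => (lb lam.zl ((a i).2 j),
          lam.a (a i).1 + sm lam.N ((a i).2 j))) =
        (lam.z (b i).1, fun j => (lb lam.zl ((b i).2 j),
          lam.a (b i).1 + sm lam.N ((b i).2 j))) := fun i => congrFun e i
      simp only [lk, Prod.mk.injEq]
      refine ⟨funext fun i => (Prod.mk.inj (hi i)).1, funext fun j => ?_⟩
      have hj : ∀ i, (lb lam.zl ((a i).2 j), lam.a (a i).1 + sm lam.N ((a i).2 j)) =
          (lb lam.zl ((b i).2 j), lam.a (b i).1 + sm lam.N ((b i).2 j)) :=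
        fun i => congrFun (Prod.mk.inj (hi i)).2 j
      exact Prod.ext (funext fun i => (Prod.mk.inj (hj i)).1)
        (funext fun i => (Prod.mk.inj (hj i)).2)
  rw [e1, e2] at h1
  exact h1

end stepD

/-- **AD-LOOKB** -/
theorem lookB : LookB := by
  intro Γ _ lam q K p' m hK _
  have hρ : IsProb (pw (ι := Fin p') (pw (ι := Fin q) lam.beta)) :=
    pw_isProb (pw_isProb lam.beta_isProb)
  have hM : IsProb (pw (ι := Fin m × Fin p') (lam.looks q K).μ) := pw_isProb (lam.looks q K).prob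
  have hM1 : IsProb (pw (ι := Fin p') (lam.looks q K).μ) := pw_isProb (lam.looks q K).prob
  -- abbreviations
  set hS : ℝ := Hc (pw (ι := Fin p') (pw (ι := Fin q) lam.beta))
    (fun f => ∑ i, sm lam.N (f i)) (fun f i => lb lam.zl (f i)) with hSdef
  have eS : lam.h (p' * q) = hS := by rw [h_eq_hI, hI_curry]
  have eh : (lam.looks q K).h (m * p') = hI (lam.looks q K) (Fin m × Fin p') := h_eq_hI _ m p'
  -- step B
  have sB := step_B hM hρ (sm (lam.looks q K).a) (lb (lam.looks q K).z)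
    (fun f : Fin p' → Fin q → lam.Lt => ∑ i, sm lam.N (f i)) (fun f i => lb lam.zl (f i))
    (fun f i k => (f i k).swap) (MP_swapWord lam) (fun f => by
      rw [← sum_neg_distrib]
      refine sum_congr rfl fun i _ => ?_
      unfold sm
      rw [← sum_neg_distrib]
      refine sum_congr rfl fun k _ => ?_
      show lam.a (f i k).2 - lam.a (f i k).1 = - (lam.a (f i k).1 - lam.a (f i k).2)
      rw [neg_sub]) (fun f hf => by
      funext i k
      show lam.z (f i k).2 = lam.z (f i k).1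
      exact (cc_ne_zero (pw_ne_zero (pw_ne_zero hf i) k)).symm)
  rw [← hI_pair] at sB
  -- step C
  have sC := step_C hM1 hρ (sm (lam.looks q K).a) (lb (lam.looks q K).z)
    (fun f : Fin p' → Fin q → lam.Lt => ∑ i, sm lam.N (f i)) (fun f i => lb lam.zl (f i)) m
  have eG : Hc (px (pw (ι := Fin m × Fin p') (lam.looks q K).μ)
      (pw (ι := Fin p') (pw (ι := Fin q) lam.beta)))
      (fun w => sm (lam.looks q K).a w.1 + ∑ i, sm lam.N (w.2 i))
      (fun w => (lb (lam.looks q K).z w.1, fun i => lb lam.zl (w.2 i))) =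
      Hc (px (pw (ι := Fin m) (pw (ι := Fin p') (lam.looks q K).μ))
        (pw (ι := Fin p') (pw (ι := Fin q) lam.beta)))
      (fun w => (∑ g, sm (lam.looks q K).a (w.1 g)) + ∑ i, sm lam.N (w.2 i))
      (fun w => (fun g => lb (lam.looks q K).z (w.1 g), fun i => lb lam.zl (w.2 i))) := by
    rw [← ((MP_curry (ι := Fin m) (κ := Fin p') (lam.looks q K).μ).prodMap
      (MP_id (pw (ι := Fin p') (pw (ι := Fin q) lam.beta)))).hc]
    refine Hc_congr ?_ ?_ ?_ ?_
    · intro a b e
      simp only [sm, Fintype.sum_prod_type, Prod.map] at e ⊢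
      exact e
    · intro a b e
      simp only [sm, Fintype.sum_prod_type, Prod.map] at e ⊢
      exact e
    · intro a b e
      simp only [Prod.map, Prod.mk.injEq] at e ⊢
      refine ⟨?_, e.2⟩
      funext g i
      exact congrFun e.1 (g, i)
    · intro a b e
      simp only [Prod.map, Prod.mk.injEq] at e ⊢
      refine ⟨?_, e.2⟩
      funext i
      exact congrFun (congrFun e.1 i.1) i.2
  have sD := step_D lam q K p'
  have hK0 : (0 : ℝ) < K := by exact_mod_cast hK
  rw [eh, eS]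
  rw [eG] at sB
  have sD' : xG lam q K p' - hS ≤ (lam.ha p' - (lam.looks q K).ha p') / K := by
    rw [le_div_iff₀ hK0, mul_comm]
    exact sD
  have sC' : Hc (px (pw (ι := Fin m) (pw (ι := Fin p') (lam.looks q K).μ))
        (pw (ι := Fin p') (pw (ι := Fin q) lam.beta)))
      (fun w => (∑ g, sm (lam.looks q K).a (w.1 g)) + ∑ i, sm lam.N (w.2 i))
      (fun w => (fun g => lb (lam.looks q K).z (w.1 g), fun i => lb lam.zl (w.2 i))) - hS ≤
      m * (xG lam q K p' - hS) := sC
  have h3 : (m : ℝ) * (xG lam q K p' - hS) ≤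
      m * ((lam.ha p' - (lam.looks q K).ha p') / K) :=
    mul_le_mul_of_nonneg_left sD' (Nat.cast_nonneg m)
  have h4 : (m : ℝ) * (2 / (K : ℝ)) * (lam.ha p' - (lam.looks q K).ha p') =
      2 * (m * ((lam.ha p' - (lam.looks q K).ha p') / K)) := by ring
  rw [h4]
  linarith

end Vale.Agent.P091.AD.H356
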