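import Vale.Agent.P091.AD.Base

/-!
# P091, AD block: measure preserving maps, product spaces, words (helper356)

* `MP μ μ' φ`: the map `φ` carries the weights `μ` to the weights `μ'`; transfer of `Pr`, `H`,
  `Hc`, `I`.
* product weights `px μ ν`; independence.
* the space `cc μ z` of conditionally independent pairs.
* words `pw`: reindexing, currying, `Fin (n + 1)`.
-/

set_option autoImplicit false

open Finset Real
open Vale.Agent.P065.Ent

noncomputable section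

namespace Vale.Agent.P091.AD.H356

open Vale.Agent.P091.AD

section mp
variable {Ω Ω' Ω'' : Type*} [Fintype Ω] [Fintype Ω'] [Fintype Ω''] {α β γ δ : Type*}
  {μ : Ω → ℝ} {μ' : Ω' → ℝ} {μ'' : Ω'' → ℝ} {φ : Ω → Ω'} {ψ : Ω' → Ω''}

/-- the map `φ` carries `μ` to `μ'` -/
def MP (μ : Ω → ℝ) (μ' : Ω' → ℝ) (φ : Ω → Ω') : Prop :=
  ∀ f : Ω' → ℝ, ∑ ω, μ ω * f (φ ω) = ∑ ω, μ' ω * f ω

theorem MP.pr (h : MP μ μ' φ) (X : Ω' → α) (x : α) : Pr μ (fun ω => X (φ ω)) x = Pr μ' X x := by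
  classical
  have := h (fun ω => if X ω = x then 1 else 0)
  unfold Pr
  simpa only [mul_ite, mul_one, mul_zero] using this

theorem MP.ent (h : MP μ μ' φ) (X : Ω' → α) : H μ (fun ω => X (φ ω)) = H μ' X := by
  unfold H
  rw [← h (fun ω => - log (Pr μ' X (X ω)))]
  exact sum_congr rfl fun ω _ => by rw [h.pr]

theorem MP.hc (h : MP μ μ' φ) (X : Ω' → α) (Y : Ω' → β) :
    Hc μ (fun ω => X (φ ω)) (fun ω => Y (φ ω)) = Hc μ' X Y := by
  unfold Hc
  rw [h.ent Y, h.ent (fun ω => (X ω, Y ω))]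

theorem MP.inf (h : MP μ μ' φ) (X : Ω' → α) (Y : Ω' → β) (Z : Ω' → γ) :
    I μ (fun ω => X (φ ω)) (fun ω => Y (φ ω)) (fun ω => Z (φ ω)) = I μ' X Y Z := by
  unfold I
  rw [h.hc X Z, h.hc X (fun ω => (Y ω, Z ω))]

theorem MP.comp (h : MP μ μ' φ) (h' : MP μ' μ'' ψ) : MP μ μ'' (fun ω => ψ (φ ω)) := fun f => by
  rw [h (fun ω => f (ψ ω)), h' f]

theorem MP.equiv (e : Ω ≃ Ω') (h : ∀ ω, μ ω = μ' (e ω)) : MP μ μ' e := fun f => by
  rw [← e.sum_comp]
  exact sum_congr rfl fun ω _ => by rw [h]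

theorem MP.symm (e : Ω ≃ Ω') (h : MP μ μ' e) : MP μ' μ e.symm := fun f => by
  rw [← h (fun ω => f (e.symm ω))]
  simp

/-! ### equality almost everywhere -/

theorem Pr_congr_ae {X X' : Ω → α} (h : ∀ ω, μ ω ≠ 0 → X ω = X' ω) (x : α) :
    Pr μ X x = Pr μ X' x := by
  classical
  unfold Pr
  refine sum_congr rfl fun ω _ => ?_
  by_cases h0 : μ ω = 0
  · simp [h0]
  · rw [h ω h0]

theorem H_congr_ae {X X' : Ω → α} (h : ∀ ω, μ ω ≠ 0 → X ω = X' ω) : H μ X = H μ X' := by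
  unfold H
  refine sum_congr rfl fun ω _ => ?_
  by_cases h0 : μ ω = 0
  · simp [h0]
  · rw [Pr_congr_ae h, h ω h0]

theorem Hc_congr_ae {X X' : Ω → α} {Y Y' : Ω → β} (h : ∀ ω, μ ω ≠ 0 → X ω = X' ω)
    (h' : ∀ ω, μ ω ≠ 0 → Y ω = Y' ω) : Hc μ X Y = Hc μ X' Y' := by
  unfold Hc
  rw [H_congr_ae h', H_congr_ae (X := fun ω => (X ω, Y ω)) (X' := fun ω => (X' ω, Y' ω))
    fun ω h0 => by rw [h ω h0, h' ω h0]]

end mp

/-! ## Product spaces -/

section prod
variable {Ω Ω' Ω₁ Ω₁' : Type*} [Fintype Ω] [Fintype Ω'] [Fintype Ω₁] [Fintype Ω₁']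
  {α β γ δ ε : Type*} {μ : Ω → ℝ} {ν : Ω' → ℝ} {μ₁ : Ω₁ → ℝ} {ν₁ : Ω₁' → ℝ}

/-- product weights -/
def px (μ : Ω → ℝ) (ν : Ω' → ℝ) (w : Ω × Ω') : ℝ := μ w.1 * ν w.2

theorem px_isProb (hμ : IsProb μ) (hν : IsProb ν) : IsProb (px μ ν) := mul_isProb hμ hν

theorem MP_fst (hν : IsProb ν) : MP (px μ ν) μ Prod.fst := fun f => by
  rw [Fintype.sum_prod_type]
  refine sum_congr rfl fun ω _ => ?_
  have : ∀ ω', px μ ν (ω, ω') * f (Prod.fst (ω, ω')) = (μ ω * f ω) * ν ω' := fun ω' => by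
    unfold px; ring
  rw [sum_congr rfl fun ω' _ => this ω', ← mul_sum, hν.sum, mul_one]

theorem MP_swap : MP (px μ ν) (px ν μ) Prod.swap :=
  MP.equiv (Equiv.prodComm Ω Ω') fun w => by
    show μ w.1 * ν w.2 = ν w.2 * μ w.1
    ring

theorem MP_snd (hμ : IsProb μ) : MP (px μ ν) ν Prod.snd :=
  (MP_swap (μ := μ) (ν := ν)).comp (MP_fst hμ)

theorem MP.prodMap {φ : Ω → Ω₁} {ψ : Ω' → Ω₁'} (h : MP μ μ₁ φ) (h' : MP ν ν₁ ψ) :
    MP (px μ ν) (px μ₁ ν₁) (Prod.map φ ψ) := fun f => by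
  rw [Fintype.sum_prod_type, Fintype.sum_prod_type]
  have e1 : ∀ ω, ∑ ω', px μ ν (ω, ω') * f (Prod.map φ ψ (ω, ω')) =
      μ ω * ∑ ω', ν₁ ω' * f (φ ω, ω') := fun ω => by
    rw [← h' (fun ω' => f (φ ω, ω')), mul_sum]
    refine sum_congr rfl fun ω' _ => ?_
    show μ ω * ν ω' * f (φ ω, ψ ω') = _
    ring
  rw [sum_congr rfl fun ω _ => e1 ω, h (fun ω => ∑ ω', ν₁ ω' * f (ω, ω'))]
  refine sum_congr rfl fun ω _ => ?_
  rw [mul_sum]
  refine sum_congr rfl fun ω' _ => ?_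
  show _ = μ₁ ω * ν₁ ω' * f (ω, ω')
  ring

theorem MP_id (μ : Ω → ℝ) : MP μ μ (fun ω => ω) := fun _ => rfl

theorem MP_assoc {κ : Ω₁ → ℝ} : MP (px (px μ ν) κ) (px μ (px ν κ))
    (fun w : (Ω × Ω') × Ω₁ => (w.1.1, (w.1.2, w.2))) :=
  MP.equiv (Equiv.prodAssoc Ω Ω' Ω₁) fun w => by
    show μ w.1.1 * ν w.1.2 * κ w.2 = μ w.1.1 * (ν w.1.2 * κ w.2)
    ring

theorem Pr_px (μ : Ω → ℝ) (ν : Ω' → ℝ) (X : Ω → α) (Y : Ω' → β) (x : α) (y : β) :
    Pr (px μ ν) (fun w => (X w.1, Y w.2)) (x, y) = Pr μ X x * Pr ν Y y := by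
  classical
  unfold Pr
  rw [Fintype.sum_prod_type, sum_mul]
  refine sum_congr rfl fun ω _ => ?_
  rw [mul_sum]
  refine sum_congr rfl fun ω' _ => ?_
  unfold px
  by_cases h1 : X ω = x
  · by_cases h2 : Y ω' = y
    · simp [h1, h2]
    · simp [h2]
  · simp [h1]

theorem H_px (hμ : IsProb μ) (hν : IsProb ν) (X : Ω → α) (Y : Ω' → β) :
    H (px μ ν) (fun w => (X w.1, Y w.2)) = H μ X + H ν Y := by
  have e1 : H μ X = ∑ w : Ω × Ω', px μ ν w * (- log (Pr μ X (X w.1))) := by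
    unfold H
    exact (MP_fst (μ := μ) hν (fun ω => - log (Pr μ X (X ω)))).symm
  have e2 : H ν Y = ∑ w : Ω × Ω', px μ ν w * (- log (Pr ν Y (Y w.2))) := by
    unfold H
    exact (MP_snd (ν := ν) hμ (fun ω => - log (Pr ν Y (Y ω)))).symm
  rw [e1, e2, ← sum_add_distrib]
  unfold H
  refine sum_congr rfl fun w _ => ?_
  rw [Pr_px]
  rcases ((px_isProb hμ hν).nonneg w).eq_or_lt with h0 | h0
  · rw [← h0]; ring
  · have h1 : 0 < μ w.1 := by
      refine lt_of_le_of_ne (hμ.nonneg _) fun h => ?_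
      unfold px at h0
      rw [← h, zero_mul] at h0
      exact lt_irrefl _ h0
    have h2 : 0 < ν w.2 := by
      refine lt_of_le_of_ne (hν.nonneg _) fun h => ?_
      unfold px at h0
      rw [← h, mul_zero] at h0
      exact lt_irrefl _ h0
    rw [log_mul (Pr_pos hμ X h1).ne' (Pr_pos hν Y h2).ne']
    ring

/-- an independent variable does not change a conditional entropy -/
theorem Hc_px_left (hμ : IsProb μ) (hν : IsProb ν) (X : Ω → α) (Y : Ω → β) (W : Ω' → γ) :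
    Hc (px μ ν) (fun w => X w.1) (fun w => (Y w.1, W w.2)) = Hc μ X Y := by
  have e1 : H (px μ ν) (fun w => (X w.1, (Y w.1, W w.2))) =
      H (px μ ν) (fun w => ((fun ω => (X ω, Y ω)) w.1, W w.2)) := by
    refine H_congr (fun a b e => ?_) (fun a b e => ?_)
    · simp only [Prod.mk.injEq] at e ⊢
      exact ⟨⟨e.1, e.2.1⟩, e.2.2⟩
    · simp only [Prod.mk.injEq] at e ⊢
      exact ⟨e.1.1, e.1.2, e.2⟩
  unfold Hc
  rw [e1, H_px hμ hν (fun ω => (X ω, Y ω)) W, H_px hμ hν Y W]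
  ring

theorem Hc_px_right (hμ : IsProb μ) (hν : IsProb ν) (X : Ω' → α) (Y : Ω → β) (W : Ω' → γ) :
    Hc (px μ ν) (fun w => X w.2) (fun w => (Y w.1, W w.2)) = Hc ν X W := by
  have e1 : H (px μ ν) (fun w => (X w.2, (Y w.1, W w.2))) =
      H (px μ ν) (fun w => (Y w.1, (fun ω => (X ω, W ω)) w.2)) := by
    refine H_congr (fun a b e => ?_) (fun a b e => ?_)
    · simp only [Prod.mk.injEq] at e ⊢
      exact ⟨e.2.1, e.1, e.2.2⟩
    · simp only [Prod.mk.injEq] at e ⊢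
      exact ⟨e.2.1, e.1, e.2.2⟩
  unfold Hc
  rw [e1, H_px hμ hν Y (fun ω => (X ω, W ω)), H_px hμ hν Y W]
  ring

/-- variables of the two factors are independent given labels of the factors -/
theorem I_px (hμ : IsProb μ) (hν : IsProb ν) (X : Ω → α) (Y : Ω' → β) (W : Ω → γ) (V : Ω' → δ) :
    I (px μ ν) (fun w => X w.1) (fun w => Y w.2) (fun w => (W w.1, V w.2)) = 0 := by
  unfold I
  rw [Hc_px_left hμ hν X W V]
  have e1 : Hc (px μ ν) (fun w => X w.1) (fun w => (Y w.2, (W w.1, V w.2))) =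
      Hc (px μ ν) (fun w => X w.1) (fun w => (W w.1, (fun ω => (Y ω, V ω)) w.2)) := by
    refine Hc_congr (Det.refl _) (Det.refl _) (fun a b e => ?_) (fun a b e => ?_)
    · simp only [Prod.mk.injEq] at e ⊢
      exact ⟨e.2.1, e.1, e.2.2⟩
    · simp only [Prod.mk.injEq] at e ⊢
      exact ⟨e.2.1, e.1, e.2.2⟩
  rw [e1, Hc_px_left hμ hν X W (fun ω => (Y ω, V ω)), sub_self]

end prod

/-! ## Conditionally independent pairs -/

section cc
variable {Ω : Type*} [Fintype Ω] {Z α β γ : Type*} {μ : Ω → ℝ} {z : Ω → Z}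

theorem MP_cc_fst (hμ : IsProb μ) (z : Ω → Z) : MP (cc μ z) μ Prod.fst := fun f => by
  classical
  rw [Fintype.sum_prod_type]
  refine sum_congr rfl fun ω _ => ?_
  have e1 : ∀ ω', cc μ z (ω, ω') * f (Prod.fst (ω, ω')) =
      (μ ω / Pr μ z (z ω) * f ω) * (if z ω' = z ω then μ ω' else 0) := by
    intro ω'
    unfold cc
    by_cases h : z ω = z ω'
    · simp only [h, if_true]; ring
    · have h' : ¬ z ω' = z ω := fun e => h e.symm
      simp only [h, h', if_false]; ring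
  have h2 : ∑ ω', (if z ω' = z ω then μ ω' else 0) = Pr μ z (z ω) := by
    unfold Pr
    exact sum_congr rfl fun ω' _ => by split_ifs <;> rfl
  rw [sum_congr rfl fun ω' _ => e1 ω', ← mul_sum, h2]
  by_cases h0 : Pr μ z (z ω) = 0
  · have h1 : μ ω = 0 := le_antisymm (h0 ▸ le_Pr hμ z ω) (hμ.nonneg ω)
    rw [h0, h1]; simp
  · field_simp

theorem cc_swap (μ : Ω → ℝ) (z : Ω → Z) (u : Ω × Ω) : cc μ z u.swap = cc μ z u := by
  classical
  unfold cc
  by_cases h : z u.1 = z u.2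
  · rw [if_pos h, if_pos (show z u.swap.1 = z u.swap.2 from h.symm)]
    show μ u.2 * μ u.1 / Pr μ z (z u.2) = _
    rw [h, mul_comm (μ u.2)]
  · rw [if_neg h, if_neg fun e : z u.swap.1 = z u.swap.2 => h e.symm]

theorem MP_cc_swap (μ : Ω → ℝ) (z : Ω → Z) : MP (cc μ z) (cc μ z) Prod.swap :=
  MP.equiv (Equiv.prodComm Ω Ω) fun w => (cc_swap μ z w).symm

theorem MP_cc_snd (hμ : IsProb μ) (z : Ω → Z) : MP (cc μ z) μ Prod.snd :=
  (MP_cc_swap μ z).comp (MP_cc_fst hμ z)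

theorem cc_ne_zero {u : Ω × Ω} (h : cc μ z u ≠ 0) : z u.1 = z u.2 := by
  classical
  by_contra hn
  exact h (by unfold cc; rw [if_neg hn])

theorem Pr_cc (μ : Ω → ℝ) (z : Ω → Z) (X : Ω → α) (Y : Ω → β) (x : α) (y : β) (c : Z) :
    Pr (cc μ z) (fun u => (X u.1, (Y u.2, z u.1))) (x, (y, c)) =
      Pr μ (fun ω => (X ω, z ω)) (x, c) * Pr μ (fun ω => (Y ω, z ω)) (y, c) / Pr μ z c := by
  classical
  have e1 : Pr μ (fun ω => (X ω, z ω)) (x, c) = ∑ ω, if X ω = x ∧ z ω = c then μ ω else 0 := by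
    unfold Pr
    simp only [Prod.mk.injEq]
  have e2 : Pr μ (fun ω => (Y ω, z ω)) (y, c) = ∑ ω, if Y ω = y ∧ z ω = c then μ ω else 0 := by
    unfold Pr
    simp only [Prod.mk.injEq]
  rw [e1, e2, sum_mul, sum_div]
  have e3 : Pr (cc μ z) (fun u => (X u.1, (Y u.2, z u.1))) (x, (y, c)) =
      ∑ u : Ω × Ω, if X u.1 = x ∧ Y u.2 = y ∧ z u.1 = c then cc μ z u else 0 := by
    unfold Pr
    simp only [Prod.mk.injEq]
  rw [e3, Fintype.sum_prod_type]
  refine sum_congr rfl fun ω _ => ?_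
  rw [mul_sum, sum_div]
  refine sum_congr rfl fun ω' _ => ?_
  by_cases h1 : X ω = x
  · by_cases h2 : Y ω' = y
    · by_cases h3 : z ω = c
      · by_cases h4 : z ω' = c
        · rw [if_pos ⟨h1, h2, h3⟩, if_pos ⟨h1, h3⟩, if_pos ⟨h2, h4⟩]
          unfold cc
          simp only [h3, h4, if_true]
        · rw [if_pos ⟨h1, h2, h3⟩, if_pos ⟨h1, h3⟩, if_neg fun e => h4 e.2]
          unfold cc
          have : ¬ z ω = z ω' := fun e => h4 (e ▸ h3)
          simp only [this, if_false]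
          ring
      · rw [if_neg fun e => h3 e.2.2, if_neg fun e => h3 e.2]
        ring
    · rw [if_neg fun e => h2 e.2.1, if_neg (fun e => h2 e.1 : ¬ (Y ω' = y ∧ z ω' = c))]
      ring
  · rw [if_neg fun e => h1 e.1, if_neg (fun e => h1 e.1 : ¬ (X ω = x ∧ z ω = c))]
    ring

/-- the two coordinates are independent given the label -/
theorem I_cc0 (hμ : IsProb μ) (z : Ω → Z) (X : Ω → α) (Y : Ω → β) :
    I (cc μ z) (fun u => X u.1) (fun u => Y u.2) (fun u => z u.1) = 0 := by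
  have hc := cc_isProb hμ z
  have hz : ∀ c, Pr (cc μ z) (fun u => z u.1) c = Pr μ z c := fun c => (MP_cc_fst hμ z).pr z c
  have hXz : ∀ p, Pr (cc μ z) (fun u => (X u.1, z u.1)) p = Pr μ (fun ω => (X ω, z ω)) p :=
    fun p => (MP_cc_fst hμ z).pr (fun ω => (X ω, z ω)) p
  have hYz : ∀ p, Pr (cc μ z) (fun u => (Y u.2, z u.1)) p = Pr μ (fun ω => (Y ω, z ω)) p := by
    intro p
    rw [← (MP_cc_snd hμ z).pr (fun ω => (Y ω, z ω)) p]
    refine Pr_congr_ae (fun u h => ?_) p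
    rw [cc_ne_zero h]
  unfold I
  rw [Hc_eq_sum hc, Hc_eq_sum hc, ← sum_sub_distrib]
  refine sum_eq_zero fun u _ => ?_
  rcases (hc.nonneg u).eq_or_lt with h0 | h0
  · rw [← h0]; ring
  · have e1 := Pr_cc μ z X Y (X u.1) (Y u.2) (z u.1)
    have p1 := Pr_pos hc (fun u : Ω × Ω => z u.1) h0
    have p2 := Pr_pos hc (fun u : Ω × Ω => (X u.1, z u.1)) h0
    have p3 := Pr_pos hc (fun u : Ω × Ω => (Y u.2, z u.1)) h0
    rw [e1, hz, hXz, hYz]
    rw [hz] at p1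
    rw [hXz] at p2
    rw [hYz] at p3
    have e2 : Pr μ (fun ω => (X ω, z ω)) (X u.1, z u.1) *
        Pr μ (fun ω => (Y ω, z ω)) (Y u.2, z u.1) / Pr μ z (z u.1) /
        Pr μ (fun ω => (Y ω, z ω)) (Y u.2, z u.1) =
        Pr μ (fun ω => (X ω, z ω)) (X u.1, z u.1) / Pr μ z (z u.1) := by
      field_simp
    rw [e2]; ring

end cc

/-! ## Words -/

section words
variable {ι ι' κ L Z Γ α : Type*} [Fintype ι] [DecidableEq ι] [Fintype ι'] [DecidableEq ι']
  [Fintype κ] [DecidableEq κ] [Fintype L]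

theorem MP_reindex (b : L → ℝ) (e : ι ≃ ι') :
    MP (pw (ι := ι') b) (pw (ι := ι) b) (fun u : ι' → L => fun i => u (e i)) := by
  have h := MP.equiv (μ := pw (ι := ι') b) (μ' := pw (ι := ι) b)
    (Equiv.arrowCongr e.symm (Equiv.refl L)) fun u => by
      unfold pw
      simp only [Equiv.arrowCongr_apply, Equiv.symm_symm, Function.comp_apply, Equiv.refl_apply]
      exact (e.prod_comp fun i => b (u i)).symm
  exact h

omit [DecidableEq ι] [DecidableEq κ] [Fintype L] in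
theorem pw_curry (b : L → ℝ) (u : ι × κ → L) :
    pw (ι := ι × κ) b u = pw (ι := ι) (pw (ι := κ) b) (fun i k => u (i, k)) := by
  unfold pw
  rw [Fintype.prod_prod_type]

theorem MP_curry (b : L → ℝ) : MP (pw (ι := ι × κ) b) (pw (ι := ι) (pw (ι := κ) b))
    (fun u : ι × κ → L => fun i k => u (i, k)) := by
  have h := MP.equiv (μ := pw (ι := ι × κ) b) (μ' := pw (ι := ι) (pw (ι := κ) b))
    (Equiv.curry ι κ L) fun u => pw_curry b u
  exact h

omit [DecidableEq ι] [DecidableEq κ] [Fintype L] in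
theorem pw_flip (b : L → ℝ) (u : ι → κ → L) :
    pw (ι := ι) (pw (ι := κ) b) u = pw (ι := κ) (pw (ι := ι) b) (fun k i => u i k) := by
  unfold pw
  exact prod_comm

theorem Pr_pw (μ : L → ℝ) (z : L → Z) (c : ι → Z) :
    Pr (pw (ι := ι) μ) (lb z) c = ∏ i, Pr μ z (c i) := by
  classical
  have h := Finset.prod_univ_sum (fun _ : ι => (univ : Finset L))
    (fun i l => if z l = c i then μ l else 0)
  rw [Fintype.piFinset_univ] at h
  have e2 : ∏ i, Pr μ z (c i) = ∏ i, ∑ l, (if z l = c i then μ l else 0) := by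
    refine prod_congr rfl fun i _ => ?_
    unfold Pr
    exact sum_congr rfl fun l _ => by split_ifs <;> rfl
  rw [e2, h]
  unfold Pr
  refine sum_congr rfl fun u _ => ?_
  by_cases hu : lb z u = c
  · rw [if_pos hu]
    unfold pw
    refine prod_congr rfl fun i _ => ?_
    have hi : z (u i) = c i := congrFun hu i
    rw [if_pos hi]
  · rw [if_neg hu]
    obtain ⟨i, hi⟩ := Function.ne_iff.mp hu
    symm
    refine prod_eq_zero (mem_univ i) ?_
    rw [if_neg]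
    exact hi

theorem pw_cc (μ : L → ℝ) (z : L → Z) (u : ι → L × L) :
    pw (cc μ z) u = cc (pw μ) (lb z) ((fun i => (u i).1), (fun i => (u i).2)) := by
  classical
  unfold cc
  by_cases h : lb z (fun i => (u i).1) = lb z (fun i => (u i).2)
  · rw [if_pos h, Pr_pw]
    unfold pw
    rw [← prod_mul_distrib, ← prod_div_distrib]
    refine prod_congr rfl fun i _ => ?_
    have hi : z (u i).1 = z (u i).2 := congrFun h i
    exact if_pos hi
  · rw [if_neg h]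
    obtain ⟨i, hi⟩ := Function.ne_iff.mp h
    unfold pw
    refine prod_eq_zero (mem_univ i) ?_
    exact if_neg hi

theorem MP_pw_cc (μ : L → ℝ) (z : L → Z) : MP (pw (ι := ι) (cc μ z)) (cc (pw (ι := ι) μ) (lb z))
    (fun u => ((fun i => (u i).1), (fun i => (u i).2))) := by
  have h := MP.equiv (μ := pw (ι := ι) (cc μ z)) (μ' := cc (pw (ι := ι) μ) (lb z))
    (Equiv.arrowProdEquivProdArrow ι (fun _ => L) (fun _ => L)) fun u => pw_cc μ z u
  exact h

omit [Fintype L] in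
theorem pw_cons {n : ℕ} (b : L → ℝ) (x : L) (u : Fin n → L) :
    pw b (Fin.cons x u : Fin (n + 1) → L) = b x * pw b u := by
  unfold pw
  rw [Fin.prod_univ_succ]
  simp only [Fin.cons_zero, Fin.cons_succ]

theorem MP_cons {n : ℕ} (b : L → ℝ) : MP (px b (pw (ι := Fin n) b)) (pw (ι := Fin (n + 1)) b)
    (fun w : L × (Fin n → L) => (Fin.cons w.1 w.2 : Fin (n + 1) → L)) := by
  have h := MP.equiv (μ := px b (pw (ι := Fin n) b)) (μ' := pw (ι := Fin (n + 1)) b)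
    (Fin.consEquiv (fun _ => L)) fun w => by
      have := pw_cons b w.1 w.2
      show b w.1 * pw b w.2 = _
      rw [← this]; rfl
  exact h

end words

end Vale.Agent.P091.AD.H356
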