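import Vale.Agent.P091.AD.H356.LookA

/-!
# P091, block AD, row 12: the affinity bound `J_le` (helper356)

For a letter `(z, a)` and an independent `(l, S)`, with `π_l` the law of `S` given `l`:
`E ∑_x (√π_l(x - a) - √π_l(x - a'))² ≤ 2 (H(a + S | z, l) - H(S | l))`, the two copies `a, a'` being
independent given `z`.
-/

set_option autoImplicit false

open Finset Real
open Vale.Agent.P065.Ent

noncomputable section

namespace Vale.Agent.P091.AD.H356

open Vale.Agent.P091.AD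

section ce
variable {Ω Z : Type*} [Fintype Ω] {μ : Ω → ℝ}

open Classical in
/-- `E[f | z = c]` -/
def ce (μ : Ω → ℝ) (z : Ω → Z) (f : Ω → ℝ) (c : Z) : ℝ :=
  (∑ ω, if z ω = c then μ ω * f ω else 0) / Pr μ z c

theorem sum_cc_ce (μ : Ω → ℝ) (z : Ω → Z) (f g : Ω → ℝ) :
    ∑ u : Ω × Ω, cc μ z u * (f u.1 * g u.2) = ∑ ω, μ ω * (f ω * ce μ z g (z ω)) := by
  classical
  rw [Fintype.sum_prod_type]
  refine sum_congr rfl fun ω _ => ?_
  unfold ce
  rw [mul_div_assoc', mul_div_assoc', mul_sum, mul_sum, sum_div]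
  refine sum_congr rfl fun ω' _ => ?_
  unfold cc
  simp only
  by_cases e : z ω = z ω'
  · rw [if_pos e, if_pos e.symm]; ring
  · rw [if_neg e, if_neg fun e' => e e'.symm]; ring

/-- tower property -/
theorem ce_tower (hμ : IsProb μ) (z : Ω → Z) (f : Ω → ℝ) (g : Z → ℝ) :
    ∑ ω, μ ω * (ce μ z f (z ω) * g (z ω)) = ∑ ω, μ ω * (f ω * g (z ω)) := by
  have h1 := MP_cc_snd hμ z (fun ω => f ω * g (z ω))
  have h2 := sum_cc_ce μ z (fun ω => g (z ω)) f
  rw [← h1]
  have e1 : ∀ u : Ω × Ω, cc μ z u * (f u.2 * g (z u.2)) = cc μ z u * (g (z u.1) * f u.2) := by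
    intro u
    by_cases h0 : cc μ z u = 0
    · rw [h0]; ring
    · rw [cc_ne_zero h0]; ring
  rw [sum_congr rfl fun u _ => e1 u, h2]
  exact sum_congr rfl fun ω _ => by ring

/-- the diagonal case -/
theorem sum_cc_self' (hμ : IsProb μ) (z : Ω → Z) (f : Ω → ℝ) :
    ∑ u : Ω × Ω, cc μ z u * (f u.1 * f u.2) = ∑ ω, μ ω * ce μ z f (z ω) ^ 2 := by
  rw [sum_cc_ce, ← ce_tower hμ z f (ce μ z f)]
  exact sum_congr rfl fun ω _ => by ring

end ce

section kernel
variable {Ω L Γ : Type*} [Fintype Ω] {ρ : Ω → ℝ}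

/-- the law of `S` given `l = c` -/
def kn (ρ : Ω → ℝ) (S : Ω → Γ) (l : Ω → L) (c : L) (x : Γ) : ℝ :=
  Pr ρ (fun ω => (S ω, l ω)) (x, c) / Pr ρ l c

theorem kn_nonneg (hρ : IsProb ρ) (S : Ω → Γ) (l : Ω → L) (c : L) (x : Γ) :
    0 ≤ kn ρ S l c x := div_nonneg (Pr_nonneg hρ _ _) (Pr_nonneg hρ _ _)

theorem kn_pos (hρ : IsProb ρ) (S : Ω → Γ) (l : Ω → L) {ω : Ω} (h : 0 < ρ ω) :
    0 < kn ρ S l (l ω) (S ω) :=
  div_pos (Pr_pos hρ (fun ω => (S ω, l ω)) h) (Pr_pos hρ l h)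

theorem Hc_eq_kn (hρ : IsProb ρ) (S : Ω → Γ) (l : Ω → L) :
    Hc ρ S l = ∑ ω, ρ ω * (- log (kn ρ S l (l ω) (S ω))) := Hc_eq_sum hρ S l

theorem sum_Pr_univ [Fintype Γ] (ρ : Ω → ℝ) (S : Ω → Γ) (l : Ω → L) (c : L) :
    ∑ x, Pr ρ (fun ω => (S ω, l ω)) (x, c) = Pr ρ l c := by
  classical
  unfold Pr
  rw [sum_comm]
  refine sum_congr rfl fun ω _ => ?_
  by_cases h : l ω = c
  · rw [if_pos h, sum_eq_single (S ω)]
    · rw [if_pos (show (S ω, l ω) = (S ω, c) by rw [h])]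
    · intro x _ hx
      rw [if_neg]
      exact fun e => hx (Prod.mk.inj e).1.symm
    · exact fun h' => absurd (mem_univ _) h'
  · rw [if_neg h]
    refine sum_eq_zero fun x _ => ?_
    rw [if_neg]
    exact fun e => h (Prod.mk.inj e).2

theorem sum_kn_le [Fintype Γ] (ρ : Ω → ℝ) (S : Ω → Γ) (l : Ω → L) (c : L) :
    ∑ x, kn ρ S l c x ≤ 1 := by
  unfold kn
  rw [← sum_div, sum_Pr_univ]
  exact div_self_le_one _

/-- disintegration -/
theorem sum_kn [Fintype Γ] (hρ : IsProb ρ) (S : Ω → Γ) (l : Ω → L) (F : Γ → L → ℝ) :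
    ∑ ω, ρ ω * F (S ω) (l ω) = ∑ ω, ρ ω * ∑ x, kn ρ S l (l ω) x * F x (l ω) := by
  classical
  -- for each `x`, the tower property for the indicator of `S = x`
  have h1 : ∀ x, ∑ ω, ρ ω * (kn ρ S l (l ω) x * F x (l ω)) =
      ∑ ω, ρ ω * ((if S ω = x then 1 else 0) * F x (l ω)) := by
    intro x
    rw [← ce_tower hρ l (fun ω => if S ω = x then 1 else 0) (fun c => F x c)]
    refine sum_congr rfl fun ω _ => ?_
    have e1 : kn ρ S l (l ω) x = ce ρ l (fun ω => if S ω = x then 1 else 0) (l ω) := by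
      unfold kn ce Pr
      congr 1
      refine sum_congr rfl fun ω' _ => ?_
      by_cases h : l ω' = l ω
      · by_cases h' : S ω' = x
        · rw [if_pos (show (S ω', l ω') = (x, l ω) by rw [h, h']), if_pos h]
          show _ = ρ ω' * (if S ω' = x then 1 else 0)
          rw [if_pos h', mul_one]
        · rw [if_neg (fun e => h' (Prod.mk.inj e).1), if_pos h]
          show _ = ρ ω' * (if S ω' = x then 1 else 0)
          rw [if_neg h', mul_zero]
      · rw [if_neg (fun e => h (Prod.mk.inj e).2), if_neg h]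
    rw [e1]
  have h2 : ∑ ω, ρ ω * ∑ x, kn ρ S l (l ω) x * F x (l ω) =
      ∑ x, ∑ ω, ρ ω * (kn ρ S l (l ω) x * F x (l ω)) := by
    rw [sum_comm]
    exact sum_congr rfl fun ω _ => mul_sum _ _ _
  rw [h2, sum_congr rfl fun x _ => h1 x, sum_comm]
  refine sum_congr rfl fun ω _ => ?_
  rw [sum_eq_single (S ω)]
  · rw [if_pos rfl, one_mul]
  · intro x _ hx
    rw [if_neg fun e => hx e.symm, zero_mul, mul_zero]
  · exact fun h => absurd (mem_univ _) h

end kernel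

section aff
variable {Ω Ω' Z L Γ : Type*} [Fintype Ω] [Fintype Ω'] [AddCommGroup Γ] [Fintype Γ]
  {μ : Ω → ℝ} {ρ : Ω' → ℝ}

/-- **the affinity bound**, abstract form -/
theorem aff_le (hμ : IsProb μ) (hρ : IsProb ρ) (a : Ω → Γ) (z : Ω → Z) (S : Ω' → Γ) (l : Ω' → L) :
    ∑ u, ρ u * (∑ v : Ω × Ω, cc μ z v * ∑ x, (√(kn ρ S l (l u) (x - a v.1))
      - √(kn ρ S l (l u) (x - a v.2))) ^ 2)
    ≤ 2 * (Hc (px μ ρ) (fun w => a w.1 + S w.2) (fun w => (z w.1, l w.2)) - Hc ρ S l) := by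
  have hP := px_isProb hμ hρ
  set r : Z → L → Γ → ℝ := fun c c' x =>
    kn (px μ ρ) (fun w => a w.1 + S w.2) (fun w => (z w.1, l w.2)) (c, c') x with hr
  set p : L → Γ → ℝ := kn ρ S l with hp
  have r0 : ∀ c c' x, 0 ≤ r c c' x := fun c c' x => kn_nonneg hP _ _ _ _
  have p0 : ∀ c x, 0 ≤ p c x := fun c x => kn_nonneg hρ _ _ _ _
  have hcc := cc_isProb hμ z
  -- `q = E ∑ √π √π'`
  set q : ℝ := ∑ u, ρ u * (∑ v : Ω × Ω, cc μ z v * ∑ x, √(p (l u) (x - a v.1))
      * √(p (l u) (x - a v.2))) with hq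
  -- translation
  have tr : ∀ (g : Γ → ℝ) (b : Γ), ∑ x, g (x - b) = ∑ x, g x := fun g b =>
    (Equiv.subRight b).sum_comp g
  -- `J ≤ 2 - 2q`
  have hJ : ∑ u, ρ u * (∑ v : Ω × Ω, cc μ z v * ∑ x, (√(p (l u) (x - a v.1))
      - √(p (l u) (x - a v.2))) ^ 2) ≤ 2 - 2 * q := by
    have h1 : ∀ u, ∀ v : Ω × Ω, ∑ x, (√(p (l u) (x - a v.1)) - √(p (l u) (x - a v.2))) ^ 2 ≤
        2 - 2 * ∑ x, √(p (l u) (x - a v.1)) * √(p (l u) (x - a v.2)) := by
      intro u v
      have e1 : ∀ x, (√(p (l u) (x - a v.1)) - √(p (l u) (x - a v.2))) ^ 2 =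
          p (l u) (x - a v.1) + p (l u) (x - a v.2)
            - 2 * (√(p (l u) (x - a v.1)) * √(p (l u) (x - a v.2))) := by
        intro x
        have s1 := Real.sq_sqrt (p0 (l u) (x - a v.1))
        have s2 := Real.sq_sqrt (p0 (l u) (x - a v.2))
        have : ∀ s t : ℝ, (s - t) ^ 2 = s ^ 2 + t ^ 2 - 2 * (s * t) := fun s t => by ring
        rw [this, s1, s2]
      rw [sum_congr rfl fun x _ => e1 x, sum_sub_distrib, sum_add_distrib, tr (p (l u)),
        tr (p (l u)), ← mul_sum]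
      have := sum_kn_le ρ S l (l u)
      rw [← hp] at this
      linarith
    have h2 : ∀ u, ∑ v : Ω × Ω, cc μ z v * ∑ x, (√(p (l u) (x - a v.1))
        - √(p (l u) (x - a v.2))) ^ 2 ≤
        2 - 2 * ∑ v : Ω × Ω, cc μ z v * ∑ x, √(p (l u) (x - a v.1)) * √(p (l u) (x - a v.2)) := by
      intro u
      have e2 : 2 - 2 * ∑ v : Ω × Ω, cc μ z v * ∑ x, √(p (l u) (x - a v.1))
          * √(p (l u) (x - a v.2)) = ∑ v : Ω × Ω, cc μ z v *
          (2 - 2 * ∑ x, √(p (l u) (x - a v.1)) * √(p (l u) (x - a v.2))) := by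
        have e3 : ∀ v : Ω × Ω, cc μ z v *
          (2 - 2 * ∑ x, √(p (l u) (x - a v.1)) * √(p (l u) (x - a v.2))) =
          2 * cc μ z v - 2 * (cc μ z v * ∑ x, √(p (l u) (x - a v.1)) * √(p (l u) (x - a v.2))) :=
          fun v => by ring
        rw [sum_congr rfl fun v _ => e3 v, sum_sub_distrib, ← mul_sum, ← mul_sum, hcc.sum]
        ring
      rw [e2]
      exact sum_le_sum fun v _ => mul_le_mul_of_nonneg_left (h1 u v) (hcc.nonneg v)
    have e4 : 2 - 2 * q = ∑ u, ρ u * (2 - 2 * ∑ v : Ω × Ω, cc μ z v *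
        ∑ x, √(p (l u) (x - a v.1)) * √(p (l u) (x - a v.2))) := by
      have e5 : ∀ u, ρ u * (2 - 2 * ∑ v : Ω × Ω, cc μ z v *
        ∑ x, √(p (l u) (x - a v.1)) * √(p (l u) (x - a v.2))) = 2 * ρ u - 2 * (ρ u *
        ∑ v : Ω × Ω, cc μ z v * ∑ x, √(p (l u) (x - a v.1)) * √(p (l u) (x - a v.2))) :=
        fun u => by ring
      rw [sum_congr rfl fun u _ => e5 u, sum_sub_distrib, ← mul_sum, ← mul_sum, hρ.sum, hq]
      ring
    rw [e4]
    exact sum_le_sum fun u _ => mul_le_mul_of_nonneg_left (h2 u) (hρ.nonneg u)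
  -- the information as an expectation
  have hI : Hc (px μ ρ) (fun w => a w.1 + S w.2) (fun w => (z w.1, l w.2)) - Hc ρ S l =
      ∑ w, px μ ρ w * (log (p (l w.2) (S w.2)) - log (r (z w.1) (l w.2) (a w.1 + S w.2))) := by
    rw [Hc_eq_kn hP, Hc_eq_kn hρ, ← (MP_snd (ν := ρ) hμ) (fun u => - log (kn ρ S l (l u) (S u))),
      ← sum_sub_distrib]
    refine sum_congr rfl fun w _ => ?_
    rw [hr, hp]
    ring
  -- `log (π / r) ≥ 2 - 2 √(r / π)`
  have hlog : ∀ w, px μ ρ w * (2 - 2 * √(r (z w.1) (l w.2) (a w.1 + S w.2) / p (l w.2) (S w.2))) ≤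
      px μ ρ w * (log (p (l w.2) (S w.2)) - log (r (z w.1) (l w.2) (a w.1 + S w.2))) := by
    intro w
    rcases (hP.nonneg w).eq_or_lt with h0 | h0
    · rw [← h0]; simp
    · refine mul_le_mul_of_nonneg_left ?_ h0.le
      have h1 : 0 < μ w.1 := by
        refine lt_of_le_of_ne (hμ.nonneg _) fun h => ?_
        unfold px at h0
        rw [← h, zero_mul] at h0
        exact lt_irrefl _ h0
      have h2 : 0 < ρ w.2 := by
        refine lt_of_le_of_ne (hρ.nonneg _) fun h => ?_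
        unfold px at h0
        rw [← h, mul_zero] at h0
        exact lt_irrefl _ h0
      have pp : 0 < p (l w.2) (S w.2) := kn_pos hρ S l h2
      have rp : 0 < r (z w.1) (l w.2) (a w.1 + S w.2) :=
        kn_pos hP (fun w => a w.1 + S w.2) (fun w => (z w.1, l w.2)) h0
      have hs : 0 < √(r (z w.1) (l w.2) (a w.1 + S w.2) / p (l w.2) (S w.2)) :=
        Real.sqrt_pos.mpr (div_pos rp pp)
      have h3 := Real.log_le_sub_one_of_pos hs
      rw [Real.log_sqrt (div_pos rp pp).le, Real.log_div rp.ne' pp.ne'] at h3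
      linarith
  -- the cross term
  have hcross : ∑ w, px μ ρ w * √(r (z w.1) (l w.2) (a w.1 + S w.2) / p (l w.2) (S w.2)) =
      ∑ u, ρ u * ∑ x, ∑ ω, μ ω * (√(p (l u) (x - a ω)) * √(r (z ω) (l u) x)) := by
    rw [Fintype.sum_prod_type]
    have e1 : ∀ ω, ∑ u, px μ ρ (ω, u) * √(r (z (ω, u).1) (l (ω, u).2) (a (ω, u).1 + S (ω, u).2)
        / p (l (ω, u).2) (S (ω, u).2)) =
        ∑ u, ρ u * ∑ x, μ ω * (√(p (l u) (x - a ω)) * √(r (z ω) (l u) x)) := by
      intro ω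
      have e2 := sum_kn hρ S l (fun x c => √(r (z ω) c (a ω + x) / p c x))
      have e3 : ∑ u, px μ ρ (ω, u) * √(r (z (ω, u).1) (l (ω, u).2) (a (ω, u).1 + S (ω, u).2)
          / p (l (ω, u).2) (S (ω, u).2)) =
          μ ω * ∑ u, ρ u * √(r (z ω) (l u) (a ω + S u) / p (l u) (S u)) := by
        rw [mul_sum]
        refine sum_congr rfl fun u _ => ?_
        show μ ω * ρ u * _ = _
        rw [mul_assoc]
      rw [e3, e2, mul_sum]
      refine sum_congr rfl fun u _ => ?_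
      have e4 : ∑ x, kn ρ S l (l u) x * √(r (z ω) (l u) (a ω + x) / p (l u) x) =
          ∑ x, √(p (l u) (x - a ω)) * √(r (z ω) (l u) x) := by
        rw [← tr (fun x => kn ρ S l (l u) x * √(r (z ω) (l u) (a ω + x) / p (l u) x)) (a ω)]
        refine sum_congr rfl fun x _ => ?_
        show p (l u) (x - a ω) * √(r (z ω) (l u) (a ω + (x - a ω)) / p (l u) (x - a ω)) = _
        have e5 : a ω + (x - a ω) = x := by abel
        rw [e5, Real.sqrt_div (r0 _ _ _)]
        rcases (p0 (l u) (x - a ω)).eq_or_lt with h0 | h0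
        · rw [← h0]; simp
        · have h1 : √(p (l u) (x - a ω)) ≠ 0 := (Real.sqrt_pos.mpr h0).ne'
          have h2 := Real.mul_self_sqrt h0.le
          calc p (l u) (x - a ω) * (√(r (z ω) (l u) x) / √(p (l u) (x - a ω)))
              = (√(p (l u) (x - a ω)) * √(p (l u) (x - a ω))) *
                (√(r (z ω) (l u) x) / √(p (l u) (x - a ω))) := by rw [h2]
            _ = _ := by field_simp
      rw [e4, mul_sum, mul_sum, mul_sum]
      exact sum_congr rfl fun x _ => by ring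
    rw [sum_congr rfl fun ω _ => e1 ω, sum_comm]
    refine sum_congr rfl fun u _ => ?_
    rw [← mul_sum, sum_comm]
  -- AM-GM
  have ham : ∀ u, ∑ x, ∑ ω, μ ω * (√(p (l u) (x - a ω)) * √(r (z ω) (l u) x)) ≤
      (1 + ∑ v : Ω × Ω, cc μ z v * ∑ x, √(p (l u) (x - a v.1)) * √(p (l u) (x - a v.2))) / 2 := by
    intro u
    have h1 : ∀ x, ∑ ω, μ ω * (√(p (l u) (x - a ω)) * √(r (z ω) (l u) x)) ≤
        (∑ ω, μ ω * r (z ω) (l u) x +
          ∑ v : Ω × Ω, cc μ z v * (√(p (l u) (x - a v.1)) * √(p (l u) (x - a v.2)))) / 2 := by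
      intro x
      have e1 := ce_tower hμ z (fun ω => √(p (l u) (x - a ω))) (fun c => √(r c (l u) x))
      have e2 := sum_cc_self' hμ z (fun ω => √(p (l u) (x - a ω)))
      rw [← e1, e2, ← sum_add_distrib, sum_div]
      refine sum_le_sum fun ω _ => ?_
      have h3 := Real.sq_sqrt (r0 (z ω) (l u) x)
      have h4 := sq_nonneg (ce μ z (fun ω => √(p (l u) (x - a ω))) (z ω) - √(r (z ω) (l u) x))
      have h5 := hμ.nonneg ω
      have h6 : ce μ z (fun ω => √(p (l u) (x - a ω))) (z ω) * √(r (z ω) (l u) x) ≤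
          (r (z ω) (l u) x + ce μ z (fun ω => √(p (l u) (x - a ω))) (z ω) ^ 2) / 2 := by
        nlinarith [h3, h4]
      calc μ ω * (ce μ z (fun ω => √(p (l u) (x - a ω))) (z ω) * √(r (z ω) (l u) x))
          ≤ μ ω * ((r (z ω) (l u) x + ce μ z (fun ω => √(p (l u) (x - a ω))) (z ω) ^ 2) / 2) :=
            mul_le_mul_of_nonneg_left h6 h5
        _ = _ := by ring
    have h2 : ∑ x, ∑ ω, μ ω * r (z ω) (l u) x ≤ 1 := by
      rw [sum_comm, ← hμ.sum]
      refine sum_le_sum fun ω _ => ?_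
      rw [← mul_sum]
      have h3 : ∑ x, r (z ω) (l u) x ≤ 1 :=
        sum_kn_le (px μ ρ) (fun w => a w.1 + S w.2) (fun w => (z w.1, l w.2)) (z ω, l u)
      exact mul_le_of_le_one_right (hμ.nonneg ω) h3
    have h4 : ∑ x, ∑ v : Ω × Ω, cc μ z v * (√(p (l u) (x - a v.1)) * √(p (l u) (x - a v.2))) =
        ∑ v : Ω × Ω, cc μ z v * ∑ x, √(p (l u) (x - a v.1)) * √(p (l u) (x - a v.2)) := by
      rw [sum_comm]
      exact sum_congr rfl fun v _ => (mul_sum _ _ _).symm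
    refine (sum_le_sum fun x _ => h1 x).trans ?_
    rw [← sum_div, sum_add_distrib, h4]
    linarith
  have hfin : ∑ w, px μ ρ w * (2 - 2 * √(r (z w.1) (l w.2) (a w.1 + S w.2) / p (l w.2) (S w.2))) ≥
      1 - q := by
    have e1 : ∀ w, px μ ρ w * (2 - 2 * √(r (z w.1) (l w.2) (a w.1 + S w.2)
        / p (l w.2) (S w.2))) = 2 * px μ ρ w - 2 * (px μ ρ w *
          √(r (z w.1) (l w.2) (a w.1 + S w.2) / p (l w.2) (S w.2))) := fun w => by ring
    rw [sum_congr rfl fun w _ => e1 w, sum_sub_distrib, ← mul_sum, ← mul_sum, hP.sum, hcross]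
    have h1 : ∑ u, ρ u * ∑ x, ∑ ω, μ ω * (√(p (l u) (x - a ω)) * √(r (z ω) (l u) x)) ≤
        (1 + q) / 2 := by
      have e2 : (1 + q) / 2 = ∑ u, ρ u * ((1 + ∑ v : Ω × Ω, cc μ z v *
          ∑ x, √(p (l u) (x - a v.1)) * √(p (l u) (x - a v.2))) / 2) := by
        have e3 : ∀ u, ρ u * ((1 + ∑ v : Ω × Ω, cc μ z v *
          ∑ x, √(p (l u) (x - a v.1)) * √(p (l u) (x - a v.2))) / 2) = (ρ u + ρ u *
          ∑ v : Ω × Ω, cc μ z v * ∑ x, √(p (l u) (x - a v.1)) * √(p (l u) (x - a v.2))) / 2 :=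
          fun u => by ring
        rw [sum_congr rfl fun u _ => e3 u, ← sum_div, sum_add_distrib, hρ.sum]
      rw [e2]
      exact sum_le_sum fun u _ => mul_le_mul_of_nonneg_left (ham u) (hρ.nonneg u)
    linarith
  have hI2 : 1 - q ≤ Hc (px μ ρ) (fun w => a w.1 + S w.2) (fun w => (z w.1, l w.2)) - Hc ρ S l := by
    rw [hI]
    exact hfin.le.trans (sum_le_sum fun w _ => hlog w)
  linarith

end aff

section law
variable {Γ : Type} [AddCommGroup Γ] [Fintype Γ] (lam : Law Γ)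

/-- **the affinity bound** for a labelled law: the increment energy of `√π_l`, `π_l` the law of
`S_P` given the label word `l`, is on average at most twice the slope `h (P + 1) - h P` -/
theorem J_le (P : ℕ) :
    ∑ u : Fin P → lam.Lt, pw lam.beta u * (∑ v : lam.Lt, lam.beta v * ∑ x,
      (√(Pr (pw lam.beta) (fun w : Fin P → lam.Lt => (sm lam.N w, lb lam.zl w))
          (x - lam.a v.1, lb lam.zl u) / Pr (pw lam.beta) (lb lam.zl) (lb lam.zl u))
        - √(Pr (pw lam.beta) (fun w : Fin P → lam.Lt => (sm lam.N w, lb lam.zl w))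
          (x - lam.a v.2, lb lam.zl u) / Pr (pw lam.beta) (lb lam.zl) (lb lam.zl u))) ^ 2)
    ≤ 2 * (lam.h (P + 1) - lam.h P) := by
  have hb : IsProb (pw (ι := Fin P) lam.beta) := pw_isProb lam.beta_isProb
  have h1 := aff_le lam.prob hb lam.a lam.z (sm lam.N) (lb lam.zl)
  have h2 := XK_zero_le lam P
  have h3 : lam.h P = Hc (pw (ι := Fin P) lam.beta) (sm lam.N) (lb lam.zl) := rfl
  rw [h3]
  refine le_trans h1 ?_
  linarith

end law

end Vale.Agent.P091.AD.H356
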