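import Vale.Agent.P091.AD.H356.Prod

/-!
# P091, AD block: the abstract look lemma (helper356)

`A` carries a hidden vector `v` and a label `y`; a look is `(lab f, v + S f)` for an independent
`f : F`.  With `K` looks:

* `look_gain`: `K * (H (pj v + pj S | lab, y, K looks) - H (pj S | lab)) ≤ H (pj v | y) - H (pj v | y, K looks)`
* `look_cost`: `H (v | y) - H (v | y, K looks) ≤ K * (H (v + S | lab, y) - H (S | lab))`
-/

set_option autoImplicit false

open Finset Real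
open Vale.Agent.P065.Ent

noncomputable section

namespace Vale.Agent.P091.AD.H356

open Vale.Agent.P091.AD

section add
variable {Ω : Type*} [Fintype Ω] {G δ : Type*} [AddCommGroup G] {μ : Ω → ℝ}

/-- `I (X; X + Y | W) = H (X + Y | W) - H (Y | W) + I (X; Y | W)` -/
lemma I_self_add' (μ : Ω → ℝ) (X Y : Ω → G) (W : Ω → δ) :
    I μ X (fun ω => X ω + Y ω) W = Hc μ (fun ω => X ω + Y ω) W - Hc μ Y W + I μ X Y W := by
  have h : Hc μ (fun ω => X ω + Y ω) (fun ω => (X ω, W ω)) = Hc μ Y (fun ω => (X ω, W ω)) := by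
    unfold Hc
    rw [H_congr (X := fun ω => (X ω + Y ω, (X ω, W ω))) (Y := fun ω => (Y ω, (X ω, W ω)))]
    · intro a b e
      simp only [Prod.mk.injEq] at e ⊢
      obtain ⟨e1, e2, e3⟩ := e
      rw [e2] at e1
      exact ⟨add_left_cancel e1, e2, e3⟩
    · intro a b e
      simp only [Prod.mk.injEq] at e ⊢
      obtain ⟨e1, e2, e3⟩ := e
      exact ⟨by rw [e1, e2], e2, e3⟩
  rw [I_symm μ X (fun ω => X ω + Y ω) W, I_symm μ X Y W]
  unfold I
  rw [h]; ring

end add

section look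
variable {A F ℒ B G G' : Type*} [Fintype A] [Fintype F] [AddCommGroup G'] [AddCommGroup G]
  {μA : A → ℝ} {ρ : F → ℝ}

/-- the label together with `K` looks -/
def lk (v : A → G') (y : A → B) (S : F → G') (lab : F → ℒ) (K : ℕ) (w : A × (Fin K → F)) :
    B × (Fin K → ℒ × G') := (y w.1, fun j => (lab (w.2 j), v w.1 + S (w.2 j)))

/-- `H (pj v | y, K looks)` -/
def DK (μA : A → ℝ) (ρ : F → ℝ) (v : A → G') (y : A → B) (S : F → G') (lab : F → ℒ)
    (pj : G' →+ G) (K : ℕ) : ℝ :=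
  Hc (px μA (pw (ι := Fin K) ρ)) (fun w => pj (v w.1)) (lk v y S lab K)

/-- `H (pj v + pj S | lab, y, K looks)` -/
def XK (μA : A → ℝ) (ρ : F → ℝ) (v : A → G') (y : A → B) (S : F → G') (lab : F → ℒ)
    (pj : G' →+ G) (K : ℕ) : ℝ :=
  Hc (px (px μA (pw (ι := Fin K) ρ)) ρ) (fun w => pj (v w.1.1) + pj (S w.2))
    (fun w => (lk v y S lab K w.1, lab w.2))

variable (v : A → G') (y : A → B) (S : F → G') (lab : F → ℒ) (pj : G' →+ G)

/-- adding one more word in front -/
def addOne (K : ℕ) (w : (A × (Fin K → F)) × F) : A × (Fin (K + 1) → F) :=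
  (w.1.1, Fin.cons w.2 w.1.2)

theorem MP_addOne (μA : A → ℝ) (ρ : F → ℝ) (K : ℕ) :
    MP (px (px μA (pw (ι := Fin K) ρ)) ρ) (px μA (pw (ι := Fin (K + 1)) ρ)) (addOne K) := by
  have h1 := MP_assoc (μ := μA) (ν := pw (ι := Fin K) ρ) (κ := ρ)
  have h2 : MP (px μA (px (pw (ι := Fin K) ρ) ρ)) (px μA (px ρ (pw (ι := Fin K) ρ)))
      (Prod.map (fun a => a) Prod.swap) := (MP_id μA).prodMap MP_swap
  have h3 : MP (px μA (px ρ (pw (ι := Fin K) ρ))) (px μA (pw (ι := Fin (K + 1)) ρ))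
      (Prod.map (fun a => a)
        (fun w : F × (Fin K → F) => (Fin.cons w.1 w.2 : Fin (K + 1) → F))) :=
    (MP_id μA).prodMap (MP_cons ρ)
  exact (h1.comp h2).comp h3

omit [Fintype A] [Fintype F] in
theorem lk_addOne_det1 (K : ℕ) :
    Det (fun w : (A × (Fin K → F)) × F => lk v y S lab (K + 1) (addOne K w))
      (fun w => (lk v y S lab K w.1, (lab w.2, v w.1.1 + S w.2))) := by
  intro a b e
  simp only [lk, addOne, Prod.mk.injEq] at e ⊢
  obtain ⟨e1, e2⟩ := e
  have h0 := congrFun e2 0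
  simp only [Fin.cons_zero, Prod.mk.injEq] at h0
  refine ⟨⟨e1, ?_⟩, h0⟩
  funext j
  have hj := congrFun e2 j.succ
  simpa only [Fin.cons_succ] using hj

omit [Fintype A] [Fintype F] in
theorem lk_addOne_det2 (K : ℕ) :
    Det (fun w : (A × (Fin K → F)) × F => (lk v y S lab K w.1, (lab w.2, v w.1.1 + S w.2)))
      (fun w => lk v y S lab (K + 1) (addOne K w)) := by
  intro a b e
  simp only [lk, addOne, Prod.mk.injEq] at e ⊢
  obtain ⟨⟨e1, e2⟩, e3, e4⟩ := e
  refine ⟨e1, ?_⟩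
  funext j
  refine Fin.cases ?_ (fun j => ?_) j
  · simp only [Fin.cons_zero]
    rw [e3, e4]
  · simp only [Fin.cons_succ]
    exact congrFun e2 j

/-- the information of a new look -/
theorem DK_sub (hμ : IsProb μA) (hρ : IsProb ρ) (K : ℕ) :
    DK μA ρ v y S lab pj K - DK μA ρ v y S lab pj (K + 1) =
      I (px (px μA (pw (ι := Fin K) ρ)) ρ) (fun w => pj (v w.1.1))
        (fun w => (v w.1.1 + S w.2, lab w.2)) (fun w => lk v y S lab K w.1) := by
  have hM : IsProb (px μA (pw (ι := Fin K) ρ)) := px_isProb hμ (pw_isProb hρ)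
  have e1 : DK μA ρ v y S lab pj K = Hc (px (px μA (pw (ι := Fin K) ρ)) ρ)
      (fun w => pj (v w.1.1)) (fun w => lk v y S lab K w.1) :=
    ((MP_fst (μ := px μA (pw (ι := Fin K) ρ)) hρ).hc (fun w => pj (v w.1)) (lk v y S lab K)).symm
  have e2 : DK μA ρ v y S lab pj (K + 1) = Hc (px (px μA (pw (ι := Fin K) ρ)) ρ)
      (fun w => pj (v w.1.1)) (fun w => ((v w.1.1 + S w.2, lab w.2), lk v y S lab K w.1)) := by
    rw [DK, ← (MP_addOne μA ρ K).hc (fun w => pj (v w.1)) (lk v y S lab (K + 1))]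
    refine Hc_congr (Det.refl _) (Det.refl _) ?_ ?_
    · refine (lk_addOne_det1 v y S lab K).trans fun a b e => ?_
      simp only [Prod.mk.injEq] at e ⊢
      exact ⟨⟨e.2.2, e.2.1⟩, e.1⟩
    · refine Det.trans (fun a b e => ?_) (lk_addOne_det2 v y S lab K)
      simp only [Prod.mk.injEq] at e ⊢
      exact ⟨e.2, e.1.2, e.1.1⟩
  rw [e1, e2]; rfl

/-- the entropy of a fresh look minus the noise -/
theorem XK_sub (hμ : IsProb μA) (hρ : IsProb ρ) (K : ℕ) :
    XK μA ρ v y S lab pj K - Hc ρ (fun f => pj (S f)) lab =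
      I (px (px μA (pw (ι := Fin K) ρ)) ρ) (fun w => pj (v w.1.1))
        (fun w => (pj (v w.1.1) + pj (S w.2), lab w.2)) (fun w => lk v y S lab K w.1) := by
  have hM : IsProb (px μA (pw (ι := Fin K) ρ)) := px_isProb hμ (pw_isProb hρ)
  have hN := px_isProb hM hρ
  rw [I_chain]
  have e1 : I (px (px μA (pw (ι := Fin K) ρ)) ρ) (fun w => pj (v w.1.1)) (fun w => lab w.2)
      (fun w => lk v y S lab K w.1) = 0 := by
    rw [← I_px hM hρ (fun w => pj (v w.1)) lab (lk v y S lab K) (fun _ => ())]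
    exact I_congr (Det.refl _) (Det.refl _) (Det.refl _) (Det.refl _)
      (fun a b e => Prod.ext e rfl) (fun a b e => (Prod.mk.inj e).1)
  have e2 := I_self_add' (px (px μA (pw (ι := Fin K) ρ)) ρ) (fun w => pj (v w.1.1))
    (fun w => pj (S w.2)) (fun w => (lab w.2, lk v y S lab K w.1))
  have e3 : I (px (px μA (pw (ι := Fin K) ρ)) ρ) (fun w => pj (v w.1.1)) (fun w => pj (S w.2))
      (fun w => (lab w.2, lk v y S lab K w.1)) = 0 := by
    rw [← I_px hM hρ (fun w => pj (v w.1)) (fun f => pj (S f)) (lk v y S lab K) lab]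
    exact I_congr (Det.refl _) (Det.refl _) (Det.refl _) (Det.refl _) (det_swap _ _) (det_swap _ _)
  have e4 : Hc (px (px μA (pw (ι := Fin K) ρ)) ρ) (fun w => pj (S w.2))
      (fun w => (lab w.2, lk v y S lab K w.1)) = Hc ρ (fun f => pj (S f)) lab := by
    rw [← Hc_px_right hM hρ (fun f => pj (S f)) (lk v y S lab K) lab]
    exact Hc_congr (Det.refl _) (Det.refl _) (det_swap _ _) (det_swap _ _)
  have e5 : XK μA ρ v y S lab pj K = Hc (px (px μA (pw (ι := Fin K) ρ)) ρ)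
      (fun w => pj (v w.1.1) + pj (S w.2)) (fun w => (lab w.2, lk v y S lab K w.1)) :=
    Hc_congr (Det.refl _) (Det.refl _) (det_swap _ _) (det_swap _ _)
  rw [e1, e2, e3, e4, e5]
  ring

theorem XK_le_DK (hμ : IsProb μA) (hρ : IsProb ρ) (K : ℕ) :
    XK μA ρ v y S lab pj K - Hc ρ (fun f => pj (S f)) lab ≤
      DK μA ρ v y S lab pj K - DK μA ρ v y S lab pj (K + 1) := by
  rw [XK_sub v y S lab pj hμ hρ, DK_sub v y S lab pj hμ hρ]
  refine I_mono_right (px_isProb (px_isProb hμ (pw_isProb hρ)) hρ) _ _ fun a b e => ?_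
  simp only [Prod.mk.injEq] at e ⊢
  refine ⟨?_, e.2⟩
  rw [← map_add, ← map_add, e.1]

theorem DK_le_XK (hμ : IsProb μA) (hρ : IsProb ρ) (hpj : Function.Injective pj) (K : ℕ) :
    DK μA ρ v y S lab pj K - DK μA ρ v y S lab pj (K + 1) ≤
      XK μA ρ v y S lab pj K - Hc ρ (fun f => pj (S f)) lab := by
  rw [XK_sub v y S lab pj hμ hρ, DK_sub v y S lab pj hμ hρ]
  refine I_mono_right (px_isProb (px_isProb hμ (pw_isProb hρ)) hρ) _ _ fun a b e => ?_
  simp only [Prod.mk.injEq] at e ⊢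
  refine ⟨hpj ?_, e.2⟩
  rw [map_add, map_add, e.1]

theorem XK_succ_le (hμ : IsProb μA) (hρ : IsProb ρ) (K : ℕ) :
    XK μA ρ v y S lab pj (K + 1) ≤ XK μA ρ v y S lab pj K := by
  have hM : IsProb (px μA (pw (ι := Fin K) ρ)) := px_isProb hμ (pw_isProb hρ)
  have hN := px_isProb (px_isProb hM hρ) hρ
  have m1 : MP (px (px (px μA (pw (ι := Fin K) ρ)) ρ) ρ) (px (px μA (pw (ι := Fin (K + 1)) ρ)) ρ)
      (Prod.map (addOne K) (fun f => f)) := (MP_addOne μA ρ K).prodMap (MP_id ρ)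
  have m2 : MP (px (px (px μA (pw (ι := Fin K) ρ)) ρ) ρ) (px (px μA (pw (ι := Fin K) ρ)) ρ)
      (Prod.map Prod.fst (fun f => f)) := (MP_fst hρ).prodMap (MP_id ρ)
  rw [XK, ← m1.hc, XK, ← m2.hc]
  refine Hc_anti hN _ ?_
  intro a b e
  simp only [Prod.map, Prod.mk.injEq] at e ⊢
  refine ⟨?_, e.2⟩
  have := lk_addOne_det1 v y S lab K a.1 b.1 e.1
  simp only [Prod.mk.injEq] at this
  exact this.1

/-- **Looks, upper side.** -/
theorem look_gain (hμ : IsProb μA) (hρ : IsProb ρ) (K : ℕ) :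
    K * (XK μA ρ v y S lab pj K - Hc ρ (fun f => pj (S f)) lab) ≤
      DK μA ρ v y S lab pj 0 - DK μA ρ v y S lab pj K := by
  induction K with
  | zero => simp
  | succ K ih =>
    have h1 := XK_succ_le v y S lab pj hμ hρ K
    have h2 := XK_le_DK v y S lab pj hμ hρ K
    have h3 : (0 : ℝ) ≤ K := Nat.cast_nonneg K
    push_cast
    nlinarith [mul_le_mul_of_nonneg_left h1 h3]

/-- **Looks, cost.** -/
theorem look_cost (hμ : IsProb μA) (hρ : IsProb ρ) (hpj : Function.Injective pj) (K : ℕ) :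
    DK μA ρ v y S lab pj 0 - DK μA ρ v y S lab pj K ≤
      K * (XK μA ρ v y S lab pj 0 - Hc ρ (fun f => pj (S f)) lab) := by
  have hmono : ∀ K, XK μA ρ v y S lab pj K ≤ XK μA ρ v y S lab pj 0 := by
    intro K
    induction K with
    | zero => exact le_rfl
    | succ K ih => exact (XK_succ_le v y S lab pj hμ hρ K).trans ih
  induction K with
  | zero => simp
  | succ K ih =>
    have h1 := hmono K
    have h2 := DK_le_XK v y S lab pj hμ hρ hpj K
    push_cast
    linarith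

theorem DK_zero (hρ : IsProb ρ) :
    DK μA ρ v y S lab pj 0 = Hc μA (fun a => pj (v a)) y := by
  have hw : IsProb (pw (ι := Fin 0) ρ) := pw_isProb hρ
  rw [DK, ← (MP_fst (μ := μA) hw).hc]
  refine Hc_congr (Det.refl _) (Det.refl _) ?_ ?_
  · exact fun a b e => (Prod.mk.inj e).1
  · intro a b e
    simp only [lk, Prod.mk.injEq]
    exact ⟨e, funext fun j => j.elim0⟩

theorem XK_zero (hρ : IsProb ρ) :
    XK μA ρ v y S lab pj 0 =
      Hc (px μA ρ) (fun w => pj (v w.1) + pj (S w.2)) (fun w => (y w.1, lab w.2)) := by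
  have hw : IsProb (pw (ι := Fin 0) ρ) := pw_isProb hρ
  have m : MP (px (px μA (pw (ι := Fin 0) ρ)) ρ) (px μA ρ) (Prod.map Prod.fst (fun f => f)) :=
    (MP_fst hw).prodMap (MP_id ρ)
  rw [XK, ← m.hc]
  refine Hc_congr (Det.refl _) (Det.refl _) ?_ ?_
  · intro a b e
    simp only [lk, Prod.map, Prod.mk.injEq] at e ⊢
    exact ⟨e.1.1, e.2⟩
  · intro a b e
    simp only [lk, Prod.map, Prod.mk.injEq] at e ⊢
    exact ⟨⟨e.1, funext fun j => j.elim0⟩, e.2⟩

end look

end Vale.Agent.P091.AD.H356
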